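import Vale.Agent.P180.R2.H259.Loc.Rad
import Vale.Agent.P180.H768.Defs

set_option linter.all false

/-!
P180: **Borel-Tits for `PSL(E)`**: `PSL(E)` is of local characteristic `p` if `p` is the
characteristic of the field.
-/

namespace Vale.Agent.P180.R2.H259.Loc

open Module Vale.Agent.P180.R2.H854 Vale.Agent.P180

variable {K E : Type*} [Field K] [AddCommGroup E] [Module K E] [FiniteDimensional K E]

/-- the centraliser of `VF F` -/
theorem cent_VF {F : Flag K E} (h0 : F 1 ≠ ⊥) (h1 : F 1 ≠ ⊤) {h : SpecialLinearGroup K E}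
    (hh : ∀ v ∈ VF F, v * h = h * v) :
    ∃ u ∈ VF F, h * u⁻¹ ∈ Subgroup.center (SpecialLinearGroup K E) := by
  -- `h` commutes with the elements of the radical
  have hcomm : ∀ a ∈ Jr F, ∀ x, h (a x) = a (h x) := by
    intro a ha x
    have h2 := hh _ (oneAdd_mem a ha)
    have h3 : (oneAdd a ha) (h x) = h ((oneAdd a ha) x) := by
      rw [← mul_apply', h2, mul_apply']
    have e : ∀ y, (oneAdd a ha) y = y + a y := fun y => rfl
    rw [e, e] at h3
    have h4 : h (x + a x) = h x + h (a x) := map_add h.1 _ _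
    rw [h4] at h3
    exact (add_left_cancel h3).symm
  obtain ⟨w, hw, hw0⟩ := Submodule.exists_mem_ne_zero_of_ne_bot h0
  obtain ⟨y, -, hy⟩ := SetLike.exists_of_lt (lt_top_iff_ne_top.mpr h1)
  obtain ⟨φ, hφy, hφ⟩ := exists_dual hy
  have hφw : ∀ {ψ : E →ₗ[K] K} {v : E}, (∀ x ∈ F 1, ψ x = 0) → v ∈ F 1 → ∀ x,
      ψ x • h v = ψ (h x) • v := by
    intro ψ v hψ hv x
    have h2 := hcomm _ (smulRight_mem_Jr hψ hv) x
    rw [LinearMap.smulRight_apply, LinearMap.smulRight_apply] at h2
    have h3 : h (ψ x • v) = ψ x • h v := map_smul h.1 _ _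
    rwa [h3] at h2
  set c : K := φ (h y) with hc
  -- `h` is the scalar `c` on `F 1`
  have hF1 : ∀ v ∈ F 1, h v = c • v := by
    intro v hv
    have := hφw hφ hv y
    rwa [hφy, one_smul] at this
  -- and modulo `F 1`
  have hmod : ∀ x, h x - c • x ∈ F 1 := by
    intro x
    by_contra hn
    obtain ⟨ψ, hψ1, hψ⟩ := exists_dual hn
    have h2 := hφw hψ hw x
    rw [hF1 w hw, ← sub_eq_zero, smul_smul, ← sub_smul] at h2
    have h3 := (smul_eq_zero.mp h2).resolve_right hw0
    have h4 : ψ (h x - c • x) = 0 := by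
      rw [map_sub, map_smul, smul_eq_mul]
      linear_combination -h3
    rw [h4] at hψ1
    exact zero_ne_one hψ1
  have hc0 : c ≠ 0 := by
    intro hc0
    have h2 := hF1 w hw
    rw [hc0, zero_smul] at h2
    apply hw0
    rw [← inv_apply_self' h w, h2]
    exact map_zero (h⁻¹).1
  -- the unipotent part
  let n : End K E := c⁻¹ • (toEnd h - c • (1 : End K E))
  have hn : ∀ x, n x = c⁻¹ • (h x - c • x) := fun x => rfl
  have hnJ : n ∈ Jr F := by
    intro i x hx
    rcases Nat.eq_zero_or_pos i with h2 | h2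
    · subst h2
      rw [hn, hF1 x hx, sub_self, smul_zero]
      exact Submodule.zero_mem _
    · rw [hn]
      exact (F i).smul_mem _ (F.mono h2 (hmod x))
  refine ⟨oneAdd n hnJ, oneAdd_mem n hnJ, ?_⟩
  have hsc : ∀ x, (h * (oneAdd n hnJ)⁻¹) x = c • x := by
    intro x
    have h2 : ∀ y, h y = c • (oneAdd n hnJ) y := by
      intro y
      have e : (oneAdd n hnJ) y = y + n y := rfl
      rw [e, hn, smul_add, smul_smul, mul_inv_cancel₀ hc0, one_smul]
      abel
    rw [mul_apply', h2, apply_inv_self']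
  rw [Subgroup.mem_center_iff]
  intro g
  apply toEnd_injective
  ext x
  change g ((h * (oneAdd n hnJ)⁻¹) x) = (h * (oneAdd n hnJ)⁻¹) (g x)
  rw [hsc, hsc]
  exact map_smul g.1 _ _

section fin

variable [Finite K] {p : ℕ} [Fact p.Prime]

theorem finite_SL' : Finite (SpecialLinearGroup K E) := by
  haveI : Finite E := Module.finite_of_finite K
  refine Finite.of_injective (fun g : SpecialLinearGroup K E => (fun x => g x : E → E)) ?_
  intro g h hgh
  apply toEnd_injective
  ext x
  exact congrFun hgh x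

/-- the centre has order prime to the characteristic -/
theorem center_coprime (hp : (p : K) = 0) :
    ¬ p ∣ Nat.card (Subgroup.center (SpecialLinearGroup K E)) := by
  haveI : Finite (SpecialLinearGroup K E) := finite_SL'
  intro hd
  obtain ⟨z, hz⟩ := exists_prime_orderOf_dvd_card' p hd
  obtain ⟨c, hc, hcz⟩ := SpecialLinearGroup.mem_center_iff.mp z.2
  have hzx : ∀ x, z.1 x = c • x := fun x => congrArg (fun f : E →ₗ[K] E => f x) hcz
  have hzp : z.1 ^ p = 1 := by
    have h1 : z ^ p = 1 := by rw [← hz]; exact pow_orderOf_eq_one z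
    exact congrArg Subtype.val h1
  have hall : ∀ x, z.1 x = x := by
    intro x
    by_cases hx : x = 0
    · rw [hx]; exact map_zero z.1.1
    · have h1 : ∀ m : ℕ, (z.1 ^ m) x = c ^ m • x := by
        intro m
        induction m with
        | zero => rw [pow_zero, pow_zero, one_smul]; rfl
        | succ m ih =>
          rw [pow_succ, mul_apply', hzx, pow_succ]
          have : (z.1 ^ m) (c • x) = c • (z.1 ^ m) x := map_smul (z.1 ^ m).1 _ _
          rw [this, ih, smul_smul, mul_comm]
      have h2 := h1 p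
      rw [hzp, one_apply'] at h2
      have h3 : (c ^ p - 1) • x = 0 := by rw [sub_smul, one_smul, ← h2, sub_self]
      have h4 : c ^ p - 1 = 0 := (smul_eq_zero.mp h3).resolve_right hx
      haveI : CharP K p := by
        have h1 : ringChar K ∣ p := ringChar.dvd hp
        have h2 : ringChar K = p := by
          rcases (Nat.dvd_prime (Fact.out : p.Prime)).mp h1 with h | h
          · exact absurd h (CharP.ringChar_ne_one)
          · exact h
        rw [← h2]
        exact ringChar.charP K
      have h5 : (c - 1) ^ p = 0 := by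
        rw [sub_pow_char, one_pow, h4]
      have h6 : c = 1 := sub_eq_zero.mp (pow_eq_zero_iff (Fact.out : p.Prime).ne_zero |>.mp h5)
      rw [hzx, h6, one_smul]
  have h4 : z = 1 := by
    apply Subtype.ext
    apply toEnd_injective
    ext x
    exact hall x
  rw [h4, orderOf_one] at hz
  exact (Fact.out : p.Prime).one_lt.ne hz

variable {T : Type} [Group T] (π : SpecialLinearGroup K E →* T)

/-- **Borel-Tits for the special linear groups**: `SL(E) / Z` is of local characteristic `p`. -/
theorem isLocalChar_of_surj (hπ : Function.Surjective π)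
    (hk : π.ker = Subgroup.center (SpecialLinearGroup K E)) (hp : (p : K) = 0) (n : ℕ) :
    IsLocalChar p n T := by
  haveI : Finite (SpecialLinearGroup K E) := finite_SL'
  intro Q hQ hQp _ hrad
  obtain ⟨R, hR, rfl⟩ := H799.BN.exists_lift (p := p) π hπ hQp
  have hkc : π.ker ≤ Subgroup.center (SpecialLinearGroup K E) := hk.le
  have hkp : ¬ p ∣ Nat.card π.ker := by rw [hk]; exact center_coprime hp
  have hcop : (Nat.card R).Coprime (Nat.card π.ker) := by
    obtain ⟨m, hm⟩ := IsPGroup.iff_card.mp hR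
    rw [hm]
    exact Nat.Coprime.pow_left _ ((Nat.Prime.coprime_iff_not_dvd Fact.out).mpr hkp)
  have hN := H799.BN.normalizer_image π hπ hkc hcop
  -- `p`-elements of `R ker π` lie in `R`
  have hpe : ∀ x, (∃ m, x ^ p ^ m = 1) → π x ∈ R.map π → x ∈ R := by
    rintro x ⟨m, hm⟩ ⟨r, hr, hrx⟩
    have hz : r⁻¹ * x ∈ π.ker := by
      rw [MonoidHom.mem_ker, map_mul, map_inv, hrx, inv_mul_cancel]
    set z := r⁻¹ * x with hzdef
    have hzc := Subgroup.mem_center_iff.mp (hkc hz)
    obtain ⟨l, hl⟩ := hR ⟨r, hr⟩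
    have hl' : r ^ p ^ l = 1 := congrArg Subtype.val hl
    have hcr : Commute r⁻¹ x := by
      have h1 : x = r * z := by rw [hzdef]; group
      have h2 : Commute r x := by
        rw [h1]
        exact (Commute.refl r).mul_right (hzc r)
      exact h2.inv_left
    have h3 : z ^ p ^ (l + m) = 1 := by
      rw [hzdef, hcr.mul_pow, pow_add, pow_mul, inv_pow, hl', inv_one, one_pow, one_mul, mul_comm,
        pow_mul, hm, one_pow]
    have h5 : z ^ Nat.card π.ker = 1 :=
      congrArg Subtype.val (pow_card_eq_one' (x := (⟨z, hz⟩ : π.ker)))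
    have h6 : z = 1 := by
      have h7 := Nat.dvd_gcd (orderOf_dvd_of_pow_eq_one h3) (orderOf_dvd_of_pow_eq_one h5)
      have h8 : Nat.Coprime (p ^ (l + m)) (Nat.card π.ker) :=
        Nat.Coprime.pow_left _ ((Nat.Prime.coprime_iff_not_dvd Fact.out).mpr hkp)
      rw [h8.gcd_eq_one, Nat.dvd_one, orderOf_eq_one_iff] at h7
      exact h7
    have h7 : x = r := (inv_mul_eq_one.mp h6).symm
    rw [h7]
    exact hr
  -- `R` is radical
  have hradR : ∀ P : Subgroup (SpecialLinearGroup K E), IsPGroup p P →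
      P ≤ Subgroup.normalizer (R : Set (SpecialLinearGroup K E)) →
      (∀ g ∈ Subgroup.normalizer (R : Set (SpecialLinearGroup K E)), ∀ x ∈ P,
        g * x * g⁻¹ ∈ P) → P ≤ R := by
    intro P hP hPN hPn
    have h1 : P.map π ≤ R.map π := by
      apply hrad
      · exact hP.map _
      · rw [hN]
        exact Subgroup.map_mono hPN
      · rintro y hy _ ⟨x, hx, rfl⟩
        rw [hN] at hy
        obtain ⟨g, hg, rfl⟩ := hy
        exact ⟨g * x * g⁻¹, hPn g hg x hx, by rw [map_mul, map_mul, map_inv]⟩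
    intro x hx
    apply hpe x
    · obtain ⟨m, hm⟩ := hP ⟨x, hx⟩
      exact ⟨m, congrArg Subtype.val hm⟩
    · exact h1 ⟨x, hx, rfl⟩
  have hRV := eq_VF_of_radical hp hR hradR
  set F := flagOf hp hR with hF
  have hR1 : R ≠ ⊥ := by
    rintro rfl
    exact hQ (Subgroup.map_bot _)
  -- the first member is proper and nonzero
  have h1top : F 1 ≠ ⊤ := by
    intro h1
    apply hR1
    rw [eq_bot_iff]
    intro g hg
    rw [Subgroup.mem_bot]
    apply toEnd_injective
    ext x
    have h2 : x ∈ F 1 := by rw [h1]; trivial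
    have h3 : g x - x ∈ (⊥ : Submodule K E) := h2 g hg
    rw [Submodule.mem_bot, sub_eq_zero] at h3
    exact h3
  have h1bot : F 1 ≠ ⊥ := by
    have h2 : asc R 0 ≠ ⊤ := by
      intro h3
      apply h1top
      exact top_le_iff.mp (h3 ▸ asc_le_succ R 0)
    have h3 := exists_nxt hp hR 0 h2
    exact (bot_le.trans_lt h3).ne'
  rw [H799.BN.centralizer_image π hπ hkc hkp hR]
  rintro _ ⟨h, hh, rfl⟩
  have hh' : ∀ v ∈ VF F, v * h = h * v := by
    intro v hv
    rw [← hRV] at hv
    exact Subgroup.mem_centralizer_iff.mp hh v hv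
  obtain ⟨u, hu, hz⟩ := cent_VF h1bot h1top hh'
  refine ⟨u, by rw [← hRV] at hu; exact hu, ?_⟩
  have h2 : h * u⁻¹ ∈ π.ker := by rw [hk]; exact hz
  rw [MonoidHom.mem_ker, map_mul, map_inv] at h2
  exact (mul_inv_eq_one.mp h2).symm

end fin

end Vale.Agent.P180.R2.H259.Loc
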