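import Vale.Agent.P180.R2.H259.Loc.IsoZ
import Vale.Agent.P180.R2.H854.FormX
import Vale.Agent.P180.R2.H47.PairDef

set_option linter.all false

/-!
P180: the classical groups in the defining characteristic are of local characteristic `p`.
-/

namespace Vale.Agent.P180.R2.H259.Loc

open Module Vale.Agent.P180.R2.H854 Vale.Agent.P180

theorem relIndex_two {H : Type*} [Group H] {X Y : Subgroup H}
    (h : ∀ g ∈ Y, ∀ g' ∈ Y, g ∉ X → g' ∉ X → g * g' ∈ X) : X.relIndex Y ∣ 2 := by
  by_cases hY : Y ≤ X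
  · rw [Subgroup.relIndex_eq_one.mpr hY]
    exact one_dvd 2
  · obtain ⟨a, haY, haX⟩ := SetLike.not_le_iff_exists.mp hY
    have : X.relIndex Y = 2 := by
      rw [Subgroup.relIndex_eq_two_iff]
      refine ⟨a, haY, fun b hb => ?_⟩
      by_cases hbX : b ∈ X
      · refine Or.inr ⟨hbX, fun hba => haX ?_⟩
        have := X.mul_mem (X.inv_mem hbX) hba
        rwa [inv_mul_cancel_left] at this
      · exact Or.inl ⟨h b hb a haY hbX haX, hbX⟩
    rw [this]

theorem char_of_dvd {p : ℕ} [Fact p.Prime] {K : Type*} [Field K] [Finite K]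
    (h : p ∣ Nat.card K) : (p : K) = 0 := by
  obtain ⟨x, hx⟩ := exists_prime_addOrderOf_dvd_card' p h
  have h1 : p • x = 0 := by rw [← hx]; exact addOrderOf_nsmul_eq_zero x
  have h2 : x ≠ 0 := by
    rintro rfl
    rw [addOrderOf_zero] at hx
    exact (Fact.out : p.Prime).one_lt.ne hx
  rw [nsmul_eq_mul] at h1
  exact (mul_eq_zero.mp h1).resolve_right h2

/-- **Classical groups in the defining characteristic.** -/
theorem lc_classical {p : ℕ} [Fact p.Prime] {T : Type} [Group T] (h : ClassicalIn p T)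
    (hpT : p ∣ Nat.card T) (n : ℕ) :
    IsLocalChar p n T ∧ (Nat.card T ≤ bZ n ∨ ∀ P : Sylow p T, n < Nat.card P) := by
  obtain ⟨K, _, _, d, hpK, hd, θ, ε, B, X, π, ⟨f1, f2, f3, f4, f5, f6⟩, hXI, hX2, hgd, hBT, hπ,
    hk⟩ := h
  let Φ : HForm K (Fin d → K) :=
    { B := B, θ := θ, ε := ε, add_left := f1, smul_left := f2, θθ := f3, εε := f4, symm := f5,
      nondeg := f6 }
  have hp : (p : K) = 0 := char_of_dvd hpK
  have hfd : finrank K (Fin d → K) = d := Module.finrank_fin_fun K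
  have hXI' : X ≤ Φ.Iso := hXI
  have hX2' : X.relIndex Φ.Iso ∣ 2 :=
    relIndex_two fun g hg g' hg' hgX hgX' => hX2 g g' hgX hgX' hg hg'
  have hV : ∀ F, Φ.SD F → VF F ⊓ Φ.Iso ≤ X := by
    intro F _
    rcases hgd with h | h
    · exact Φ.VF_iso_le h hX2' F
    · exact fun g hg => h g hg.2
  have hg : BTForm Φ := by
    rcases hBT with h | h | ⟨h, h4⟩
    · exact Or.inl h
    · exact Or.inr (Or.inl h)
    · refine Or.inr (Or.inr ⟨h, ?_, ?_⟩)
      · rw [hfd]; omega
      · rw [hfd]; exact h4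
  refine ⟨lc_iso Φ hg hp hXI' hV π hπ hk n, ?_⟩
  exact card_or_iso Φ hg (by rw [hfd]; exact hd) hp hXI' hV π hπ (fun x => (hk x).mp) hpT n

end Vale.Agent.P180.R2.H259.Loc
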