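import Vale.Agent.P180.R2.H259.Loc.IsoS

set_option linter.all false

/-!
P180: the centraliser of the isometries in the unipotent radical of the stabiliser of a totally
isotropic subspace.
-/

namespace Vale.Agent.P180.R2.H259.Loc

open Module Vale.Agent.P180.R2.H854

variable {K E : Type*} [Field K] [AddCommGroup E] [Module K E] (Φ : HForm K E)
  [FiniteDimensional K E] [Finite K]

/-- the condition on the form: alternating or hermitian, or the characteristic is odd and the
dimension is not `2` or `4` -/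
def BTForm : Prop :=
  (∀ x, Φ.B x x = 0) ∨ (∃ a, Φ.θ a ≠ a) ∨ (Odd (Nat.card K) ∧ finrank K E ≠ 2 ∧ finrank K E ≠ 4)

theorem exists_c (hg : BTForm Φ) : ∃ c, c + Φ.θ c = 1 ∨ ∀ x, Φ.B x x = 0 := by
  rcases hg with h | ⟨a, ha⟩ | ⟨h, -⟩
  · exact ⟨0, Or.inr h⟩
  · have hex : ∃ b, b + Φ.θ b ≠ 0 := by
      by_contra hc
      push Not at hc
      have h1 := hc 1
      rw [map_one] at h1
      have h2 := hc a
      apply ha
      have h3 : a + a = 0 := by
        have h4 : a * (1 + 1) = 0 := by rw [h1, mul_zero]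
        linear_combination h4
      linear_combination h2 - h3
    obtain ⟨b, hb⟩ := hex
    refine ⟨b * (b + Φ.θ b)⁻¹, Or.inl ?_⟩
    rw [map_mul, map_inv₀, map_add, Φ.θθ, add_comm (Φ.θ b) b, ← add_mul, mul_inv_cancel₀ hb]
  · have h2 := two_ne_zero_of_odd h
    refine ⟨2⁻¹, Or.inl ?_⟩
    rw [map_inv₀, map_ofNat, ← two_mul, mul_inv_cancel₀ h2]

theorem exists_dualvec {W : Submodule K E} {u : E} (hu : u ∉ W) :
    ∃ y ∈ Φ.perp W, Φ.B y u = 1 := by
  have h1 : ∃ y ∈ Φ.perp W, Φ.B y u ≠ 0 := by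
    by_contra hc
    push Not at hc
    apply hu
    rw [← Φ.perp_perp W, Φ.mem_perp']
    exact hc
  obtain ⟨y, hy, hyu⟩ := h1
  refine ⟨(Φ.B y u)⁻¹ • y, (Φ.perp W).smul_mem _ hy, ?_⟩
  rw [Φ.smul_left, inv_mul_cancel₀ hyu]

section

variable {W : Submodule K E} (hW0 : W ≠ ⊥) (hiso : W ≤ Φ.perp W) {h : SpecialLinearGroup K E}
  (hI : h ∈ Φ.Iso) (hhW : ∀ w ∈ W, h w ∈ W)
  (hh : ∀ v ∈ VF (flag2 hiso) ⊓ Φ.Iso, v * h = h * v)

include hh in
theorem comm_rel {v : SpecialLinearGroup K E} (hv : v ∈ VF (flag2 hiso) ⊓ Φ.Iso) (y : E) :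
    h (v y - y) = v (h y) - h y := by
  have h1 : v (h y) = h (v y) := by rw [← mul_apply', hh v hv, mul_apply']
  have h2 : h (v y - y) = h (v y) - h y := map_sub h.1 _ _
  rw [h2, h1]

include hI hhW in
theorem perp_stable {y : E} (hy : y ∈ Φ.perp W) : h y ∈ Φ.perp W := by
  intro w hw
  have h1 := inv_mem_of_forall hhW w hw
  have h2 := hI y (h⁻¹ w)
  rw [apply_inv_self'] at h2
  rw [h2]
  exact hy _ h1

include hh in
/-- the relation of the Siegel transformations -/
theorem siegel_rel {c : K} (hc : c + Φ.θ c = 1 ∨ ∀ x, Φ.B x x = 0) {u w : E} (hw : w ∈ W)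
    (hu : u ∈ Φ.perp W) (y : E) :
    Φ.B y u • h w - (Φ.θ Φ.ε * Φ.B y w) • h u - (c * (Φ.θ Φ.ε * Φ.B y w * Φ.B u u)) • h w =
    Φ.B (h y) u • w - (Φ.θ Φ.ε * Φ.B (h y) w) • u -
      (c * (Φ.θ Φ.ε * Φ.B (h y) w * Φ.B u u)) • w := by
  obtain ⟨v, hv, hve⟩ := siegel Φ hc hiso hw hu
  have h1 := comm_rel Φ hiso hh hv y
  rw [hve, hve] at h1
  rw [← h1]
  have e1 : ∀ a b : E, h (a - b) = h a - h b := fun a b => map_sub h.1 _ _
  have e2 : ∀ (a : K) (b : E), h (a • b) = a • h b := fun a b => map_smul h.1 _ _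
  rw [e1, e1, e2, e2, e2]

/-- the conclusion -/
def Cncl (h : SpecialLinearGroup K E) (W : Submodule K E) (μ : K) : Prop :=
  (∀ w ∈ W, h w = μ • w) ∧ (∀ y, h y - μ • y ∈ Φ.perp W) ∧ ∀ y ∈ Φ.perp W, h y - μ • y ∈ W

include hW0 hI hhW hh in
theorem cncl_ne {c : K} (hc : c + Φ.θ c = 1 ∨ ∀ x, Φ.B x x = 0) (hne : Φ.perp W ≠ W) :
    ∃ μ, Cncl Φ h W μ := by
  obtain ⟨w0, hw0, hw00⟩ := Submodule.exists_mem_ne_zero_of_ne_bot hW0
  obtain ⟨y0, hy0, hy0W⟩ : ∃ y0 ∈ Φ.perp W, y0 ∉ W := by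
    by_contra hcon
    push Not at hcon
    exact hne (le_antisymm hcon hiso)
  obtain ⟨u0, hu0, hyu⟩ : ∃ u0 ∈ Φ.perp W, Φ.B y0 u0 ≠ 0 := by
    by_contra hcon
    push Not at hcon
    apply hy0W
    rw [← Φ.perp_perp W]
    exact hcon
  -- the relation for `y ∈ W^⊥`
  have key : ∀ y ∈ Φ.perp W, ∀ u ∈ Φ.perp W, ∀ w ∈ W, Φ.B y u • h w = Φ.B (h y) u • w := by
    intro y hy u hu w hw
    have h1 := siegel_rel Φ hiso hh hc hw hu y
    have h2 : Φ.B y w = 0 := hy w hw
    have h3 : Φ.B (h y) w = 0 := perp_stable Φ hI hhW hy w hw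
    rw [h2, h3] at h1
    simpa using h1
  set μ := (Φ.B y0 u0)⁻¹ * Φ.B (h y0) u0 with hμ
  have c1 : ∀ w ∈ W, h w = μ • w := by
    intro w hw
    have h1 := key y0 hy0 u0 hu0 w hw
    rw [hμ, mul_smul, ← h1, smul_smul, inv_mul_cancel₀ hyu, one_smul]
  have c3 : ∀ y ∈ Φ.perp W, h y - μ • y ∈ W := by
    intro y hy
    rw [← Φ.perp_perp W]
    intro u hu
    have h1 := key y hy u hu w0 hw0
    rw [c1 w0 hw0, smul_smul, ← sub_eq_zero, ← sub_smul] at h1
    have h2 := (smul_eq_zero.mp h1).resolve_right hw00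
    rw [Φ.sub_left, Φ.smul_left]
    linear_combination -h2
  have hμμ : Φ.θ μ * μ = 1 := by
    have h1 := hI y0 u0
    have h2 := c3 y0 hy0
    have h3 := c3 u0 hu0
    set a := h y0 - μ • y0 with ha
    set b := h u0 - μ • u0 with hb
    have e1 : h y0 = μ • y0 + a := by rw [ha]; abel
    have e2 : h u0 = μ • u0 + b := by rw [hb]; abel
    rw [e1, e2, Φ.add_left, Φ.add_right, Φ.add_right, Φ.smul_left, Φ.smul_right, Φ.smul_left,
      Φ.smul_right, hy0 b h3, (Φ.mem_perp'.mp hu0) a h2, hiso h2 b h3] at h1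
    have h4 : (Φ.θ μ * μ - 1) * Φ.B y0 u0 = 0 := by linear_combination h1
    exact sub_eq_zero.mp ((mul_eq_zero.mp h4).resolve_right hyu)
  have hθ0 : Φ.θ μ ≠ 0 := left_ne_zero_of_mul_eq_one hμμ
  refine ⟨μ, c1, ?_, c3⟩
  intro y w hw
  have h1 := hI y w
  rw [c1 w hw, Φ.smul_right] at h1
  rw [Φ.sub_left, Φ.smul_left]
  apply mul_left_cancel₀ hθ0
  rw [mul_sub, h1, mul_zero]
  linear_combination (-Φ.B y w) * hμμ

include hW0 in
/-- from the relation of the transvections -/
theorem cncl_of_tr (hrel : ∀ w ∈ W, ∀ y, Φ.B y w • h w = Φ.B (h y) w • w) :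
    ∃ μ : K, (∀ w ∈ W, h w = μ • w) ∧ ∀ y, h y - μ • y ∈ Φ.perp W := by
  have h1 : ∀ w ∈ W, ∃ c : K, toEnd h w = c • w := by
    intro w hw
    by_cases hw0 : w = 0
    · refine ⟨0, ?_⟩
      rw [hw0, map_zero, smul_zero]
    · obtain ⟨y, -, hy⟩ := exists_dualvec Φ (W := ⊥) (u := w) (by rwa [Submodule.mem_bot])
      have h2 := hrel w hw y
      rw [hy, one_smul] at h2
      exact ⟨_, h2⟩
  obtain ⟨μ, hμ⟩ := scalar_on h1
  refine ⟨μ, hμ, ?_⟩
  intro y w hw
  by_cases hw0 : w = 0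
  · rw [hw0, Φ.zero_right]
  · have h2 := hrel w hw y
    have h3 : h w = μ • w := hμ w hw
    rw [h3, smul_smul, ← sub_eq_zero, ← sub_smul] at h2
    have h4 := (smul_eq_zero.mp h2).resolve_right hw0
    rw [Φ.sub_left, Φ.smul_left]
    linear_combination -h4

include hW0 hI hhW hh in
theorem exists_cncl (hg : BTForm Φ) : ∃ μ, Cncl Φ h W μ := by
  obtain ⟨c, hc⟩ := exists_c Φ hg
  by_cases hne : Φ.perp W = W
  · -- a Lagrangian subspace
    have fin : (∃ μ : K, (∀ w ∈ W, h w = μ • w) ∧ ∀ y, h y - μ • y ∈ Φ.perp W) →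
        ∃ μ, Cncl Φ h W μ := by
      rintro ⟨μ, h1, h2⟩
      refine ⟨μ, h1, h2, ?_⟩
      intro y hy
      rw [hne] at hy
      rw [h1 y hy, sub_self]
      exact W.zero_mem
    apply fin
    rcases hg with ha | hθ | ⟨hK, hd2, hd4⟩
    · apply cncl_of_tr Φ hW0
      intro w hw y
      obtain ⟨v, hv, hve⟩ := transv Φ ha hiso hw
      have h1 := comm_rel Φ hiso hh hv y
      rw [hve, hve] at h1
      rw [← h1]
      exact (map_smul h.1 _ _).symm
    · apply cncl_of_tr Φ hW0
      intro w hw y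
      obtain ⟨a, ha⟩ : ∃ a, Φ.θ a ≠ Φ.θ Φ.ε * a := by
        by_contra hcon
        push Not at hcon
        obtain ⟨b, hb⟩ := hθ
        have h1 := hcon 1
        rw [map_one, mul_one] at h1
        exact hb (by rw [hcon b, ← h1, one_mul])
      have hww : Φ.B w w = 0 := hiso hw w hw
      have haw : a • w ∈ Φ.perp W := hiso (W.smul_mem a hw)
      have h1 := siegel_rel Φ hiso hh hc hw haw y
      have e2 : h (a • w) = a • h w := map_smul h.1 _ _
      rw [e2, Φ.smul_right, Φ.smul_right, Φ.smul_left, Φ.smul_right, hww] at h1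
      simp only [mul_zero, zero_smul, sub_zero, smul_smul] at h1
      rw [← sub_smul, ← sub_smul] at h1
      have e3 : Φ.θ a * Φ.B y w - Φ.θ Φ.ε * Φ.B y w * a = (Φ.θ a - Φ.θ Φ.ε * a) * Φ.B y w := by
        ring
      have e4 : Φ.θ a * Φ.B (h y) w - Φ.θ Φ.ε * Φ.B (h y) w * a =
          (Φ.θ a - Φ.θ Φ.ε * a) * Φ.B (h y) w := by ring
      rw [e3, e4, mul_smul, mul_smul] at h1
      exact smul_right_injective E (sub_ne_zero.mpr ha) h1
    · -- the symmetric case
      have hdim : 3 ≤ finrank K W := by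
        have h1 := Φ.finrank_add_finrank_perp W
        rw [hne] at h1
        have h2 : finrank K W ≠ 0 := by
          intro h3
          exact hW0 (Submodule.finrank_eq_zero.mp h3)
        omega
      -- a vector outside the span of two vectors
      have hout : ∀ s : Finset E, s.card ≤ 2 → ∃ u ∈ W, u ∉ Submodule.span K (s : Set E) := by
        intro s hs
        by_contra hcon
        push Not at hcon
        have h1 : W ≤ Submodule.span K (s : Set E) := hcon
        have h2 := Submodule.finrank_mono h1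
        have h3 := finrank_span_finset_le_card (R := K) s
        have h4 : finrank K W ≤ s.card := h2.trans h3
        omega
      have rel : ∀ u ∈ W, ∀ w ∈ W, ∀ y, Φ.B y u • h w - (Φ.θ Φ.ε * Φ.B y w) • h u =
          Φ.B (h y) u • w - (Φ.θ Φ.ε * Φ.B (h y) w) • u := by
        intro u hu w hw y
        have h1 := siegel_rel Φ hiso hh hc hw (hiso hu) y
        have h2 : Φ.B u u = 0 := hiso hu u hu
        rw [h2] at h1
        simpa using h1
      classical
      have h1 : ∀ w ∈ W, ∃ c : K, toEnd h w = c • w := by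
        intro w hw
        by_cases hw0 : w = 0
        · refine ⟨0, ?_⟩
          rw [hw0, map_zero, smul_zero]
        obtain ⟨u, hu, huw⟩ := hout {w} (by simp)
        obtain ⟨u', hu', huw'⟩ := hout {w, u} Finset.card_le_two
        have huw1 : u ∉ Submodule.span K ({w} : Set E) := by simpa using huw
        have huw2 : u' ∉ Submodule.span K ({w, u} : Set E) := by simpa using huw'
        have huw3 : u' ∉ Submodule.span K ({w} : Set E) := fun hc =>
          huw2 (Submodule.span_mono (by simp) hc)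
        -- `h w` is in the span of `w` and `u`
        have hsp : ∀ u ∈ W, u ∉ Submodule.span K ({w} : Set E) → ∃ a b : K,
            h w = a • w + b • u := by
          intro u hu huw
          obtain ⟨y, hy, hyu⟩ := exists_dualvec Φ huw
          have hyw : Φ.B y w = 0 := hy w (Submodule.mem_span_singleton_self w)
          have h2 := rel u hu w hw y
          rw [hyu, hyw, mul_zero, zero_smul, sub_zero, one_smul] at h2
          refine ⟨Φ.B (h y) u, -(Φ.θ Φ.ε * Φ.B (h y) w), ?_⟩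
          rw [h2, neg_smul, sub_eq_add_neg]
        obtain ⟨a, b, e1⟩ := hsp u hu huw1
        obtain ⟨a', b', e2⟩ := hsp u' hu' huw3
        have hb' : b' = 0 := by
          by_contra hb'
          apply huw2
          rw [Submodule.mem_span_pair]
          refine ⟨b'⁻¹ * (a - a'), b'⁻¹ * b, ?_⟩
          have e3 : b' • u' = (a - a') • w + b • u := by
            have e4 : a • w + b • u = a' • w + b' • u' := e1.symm.trans e2
            rw [sub_smul]
            have e5 : b' • u' = a • w + b • u - a' • w := by rw [e4]; abel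
            rw [e5]; abel
          calc (b'⁻¹ * (a - a')) • w + (b'⁻¹ * b) • u = b'⁻¹ • ((a - a') • w + b • u) := by
                rw [smul_add, smul_smul, smul_smul]
            _ = b'⁻¹ • (b' • u') := by rw [e3]
            _ = u' := by rw [smul_smul, inv_mul_cancel₀ hb', one_smul]
        refine ⟨a', ?_⟩
        rw [hb', zero_smul, add_zero] at e2
        exact e2
      obtain ⟨μ, hμ⟩ := scalar_on h1
      refine ⟨μ, hμ, ?_⟩
      intro y u hu
      by_cases hu0 : u = 0
      · rw [hu0, Φ.zero_right]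
      obtain ⟨w, hw, hwu⟩ := hout {u} (by simp)
      have hwu1 : w ∉ Submodule.span K ({u} : Set E) := by simpa using hwu
      have h2 := rel u hu w hw y
      have h3 : h w = μ • w := hμ w hw
      have h4 : h u = μ • u := hμ u hu
      rw [h3, h4, smul_smul, smul_smul] at h2
      -- the coefficient of `w`
      have h5 : (Φ.B y u * μ - Φ.B (h y) u) • w =
          (Φ.θ Φ.ε * Φ.B y w * μ - Φ.θ Φ.ε * Φ.B (h y) w) • u := by
        rw [sub_smul, sub_smul, sub_eq_sub_iff_sub_eq_sub]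
        exact h2
      have h6 : Φ.B y u * μ - Φ.B (h y) u = 0 := by
        by_contra h7
        apply hwu1
        rw [Submodule.mem_span_singleton]
        refine ⟨(Φ.B y u * μ - Φ.B (h y) u)⁻¹ *
          (Φ.θ Φ.ε * Φ.B y w * μ - Φ.θ Φ.ε * Φ.B (h y) w), ?_⟩
        rw [mul_smul, ← h5, smul_smul, inv_mul_cancel₀ h7, one_smul]
      rw [Φ.sub_left, Φ.smul_left]
      linear_combination -h6
  · exact cncl_ne Φ hW0 hiso hI hhW hh hc hne

include hW0 hI hhW hh in
/-- **the centraliser of the isometries in the unipotent radical** -/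
theorem cent_iso (hg : BTForm Φ) : ∃ u ∈ VF (flag2 hiso) ⊓ Φ.Iso,
    h * u⁻¹ ∈ Subgroup.center (SpecialLinearGroup K E) := by
  obtain ⟨μ, c1, c2, c3⟩ := exists_cncl Φ hW0 hiso hI hhW hh hg
  obtain ⟨w, hw, hw0⟩ := Submodule.exists_mem_ne_zero_of_ne_bot hW0
  obtain ⟨y, -, hy⟩ := exists_dualvec Φ (W := ⊥) (u := w) (by rwa [Submodule.mem_bot])
  have hμμ : Φ.θ μ * μ = 1 := by
    have h1 := hI y w
    have h2 := c2 y w hw
    rw [Φ.sub_left, Φ.smul_left, hy, mul_one, sub_eq_zero] at h2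
    rw [c1 w hw, Φ.smul_right, h2, hy] at h1
    exact h1
  have hμ0 : μ ≠ 0 := right_ne_zero_of_mul_eq_one hμμ
  let n : End K E := μ⁻¹ • (toEnd h - μ • (1 : End K E))
  have hn : ∀ x, n x = μ⁻¹ • (h x - μ • x) := fun x => rfl
  have hnJ : n ∈ Jr (flag2 hiso) := by
    intro i x hx
    rw [hn]
    apply Submodule.smul_mem
    rcases i with _ | _ | _ | i
    · rw [c1 x hx, sub_self]
      exact Submodule.zero_mem _
    · exact c3 x hx
    · exact c2 x
    · exact Submodule.mem_top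
  have h2 : ∀ y, h y = μ • (oneAdd n hnJ) y := by
    intro y
    have e : (oneAdd n hnJ) y = y + n y := rfl
    rw [e, hn, smul_add, smul_smul, mul_inv_cancel₀ hμ0, one_smul]
    abel
  refine ⟨oneAdd n hnJ, ⟨oneAdd_mem n hnJ, ?_⟩, ?_⟩
  · change ∀ x y, Φ.B _ _ = _
    intro x y
    have h3 := hI x y
    rw [h2, h2, Φ.smul_left, Φ.smul_right] at h3
    have h4 : μ * (Φ.θ μ * Φ.B ((oneAdd n hnJ) x) ((oneAdd n hnJ) y)) =
        Φ.B ((oneAdd n hnJ) x) ((oneAdd n hnJ) y) := by
      linear_combination (Φ.B ((oneAdd n hnJ) x) ((oneAdd n hnJ) y)) * hμμ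
    rw [← h4]
    exact h3
  · have hsc : ∀ x, (h * (oneAdd n hnJ)⁻¹) x = μ • x := by
      intro x
      rw [mul_apply', h2, apply_inv_self']
    rw [Subgroup.mem_center_iff]
    intro g
    apply toEnd_injective
    ext x
    change g ((h * (oneAdd n hnJ)⁻¹) x) = (h * (oneAdd n hnJ)⁻¹) (g x)
    rw [hsc, hsc]
    exact map_smul g.1 _ _

end

end Vale.Agent.P180.R2.H259.Loc
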