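import Vale.Agent.P180.R2.H259.Loc.IsoC
import Vale.Agent.P180.R2.H259.Loc.Cent

set_option linter.all false

/-!
P180: **Borel-Tits for the classical groups**: the groups of isometries of alternating, hermitian
and symmetric forms, modulo scalars, are of local characteristic `p`.
-/

namespace Vale.Agent.P180.R2.H259.Loc

open Module Vale.Agent.P180.R2.H854 Vale.Agent.P180

section gen

variable {p : ℕ} [Fact p.Prime] {G : Type*} [Group G] [Finite G] {T : Type} [Group T] (π : G →* T)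

/-- Transfer of the local characteristic along a central quotient. -/
theorem lc_of_cent (hπ : Function.Surjective π) (hkc : π.ker ≤ Subgroup.center G)
    (hkp : ¬ p ∣ Nat.card π.ker)
    (key : ∀ R : Subgroup G, R ≠ ⊥ → IsPGroup p R →
      (∀ P : Subgroup G, IsPGroup p P → P ≤ Subgroup.normalizer (R : Set G) →
        (∀ g ∈ Subgroup.normalizer (R : Set G), ∀ x ∈ P, g * x * g⁻¹ ∈ P) → P ≤ R) →
      ∀ h ∈ Subgroup.centralizer (R : Set G), ∃ u ∈ R, h * u⁻¹ ∈ π.ker) (n : ℕ) :
    IsLocalChar p n T := by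
  intro Q hQ hQp _ hrad
  obtain ⟨R, hR, rfl⟩ := H799.BN.exists_lift (p := p) π hπ hQp
  have hcop : (Nat.card R).Coprime (Nat.card π.ker) := by
    obtain ⟨m, hm⟩ := IsPGroup.iff_card.mp hR
    rw [hm]
    exact Nat.Coprime.pow_left _ ((Nat.Prime.coprime_iff_not_dvd Fact.out).mpr hkp)
  have hN := H799.BN.normalizer_image π hπ hkc hcop
  -- `p`-elements of `R ker π` lie in `R`
  have hpe : ∀ x, (∃ m, x ^ p ^ m = 1) → π x ∈ R.map π → x ∈ R := by
    rintro x ⟨m, hm⟩ ⟨r, hr, hrx⟩
    have hz : r⁻¹ * x ∈ π.ker := by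
      rw [MonoidHom.mem_ker, map_mul, map_inv, hrx, inv_mul_cancel]
    set z := r⁻¹ * x with hzdef
    have hzc := Subgroup.mem_center_iff.mp (hkc hz)
    obtain ⟨l, hl⟩ := hR ⟨r, hr⟩
    have hl' : r ^ p ^ l = 1 := congrArg Subtype.val hl
    have hcr : Commute r⁻¹ x := by
      have h1 : x = r * z := by rw [hzdef]; group
      have h2 : Commute r x := by
        rw [h1]
        exact (Commute.refl r).mul_right (hzc r)
      exact h2.inv_left
    have h3 : z ^ p ^ (l + m) = 1 := by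
      rw [hzdef, hcr.mul_pow, pow_add, pow_mul, inv_pow, hl', inv_one, one_pow, one_mul, mul_comm,
        pow_mul, hm, one_pow]
    have h5 : z ^ Nat.card π.ker = 1 :=
      congrArg Subtype.val (pow_card_eq_one' (x := (⟨z, hz⟩ : π.ker)))
    have h6 : z = 1 := by
      have h7 := Nat.dvd_gcd (orderOf_dvd_of_pow_eq_one h3) (orderOf_dvd_of_pow_eq_one h5)
      have h8 : Nat.Coprime (p ^ (l + m)) (Nat.card π.ker) :=
        Nat.Coprime.pow_left _ ((Nat.Prime.coprime_iff_not_dvd Fact.out).mpr hkp)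
      rw [h8.gcd_eq_one, Nat.dvd_one, orderOf_eq_one_iff] at h7
      exact h7
    have h7 : x = r := (inv_mul_eq_one.mp h6).symm
    rw [h7]
    exact hr
  have hradR : ∀ P : Subgroup G, IsPGroup p P → P ≤ Subgroup.normalizer (R : Set G) →
      (∀ g ∈ Subgroup.normalizer (R : Set G), ∀ x ∈ P, g * x * g⁻¹ ∈ P) → P ≤ R := by
    intro P hP hPN hPn
    have h1 : P.map π ≤ R.map π := by
      apply hrad
      · exact hP.map _
      · rw [hN]
        exact Subgroup.map_mono hPN
      · rintro y hy _ ⟨x, hx, rfl⟩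
        rw [hN] at hy
        obtain ⟨g, hg, rfl⟩ := hy
        exact ⟨g * x * g⁻¹, hPn g hg x hx, by rw [map_mul, map_mul, map_inv]⟩
    intro x hx
    apply hpe x
    · obtain ⟨m, hm⟩ := hP ⟨x, hx⟩
      exact ⟨m, congrArg Subtype.val hm⟩
    · exact h1 ⟨x, hx, rfl⟩
  have hR1 : R ≠ ⊥ := by
    rintro rfl
    exact hQ (Subgroup.map_bot _)
  rw [H799.BN.centralizer_image π hπ hkc hkp hR]
  rintro _ ⟨h, hh, rfl⟩
  obtain ⟨u, hu, hz⟩ := key R hR1 hR hradR h hh
  refine ⟨u, hu, ?_⟩
  rw [MonoidHom.mem_ker, map_mul, map_inv] at hz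
  exact (mul_inv_eq_one.mp hz).symm

/-- a `p`-group normalised by a radical subgroup, whose intersection with the normaliser is normal
there, is contained in the radical subgroup -/
theorem le_of_radical {R U : Subgroup G} (hR : IsPGroup p R) (hU : IsPGroup p U)
    (hrad : ∀ P : Subgroup G, IsPGroup p P → P ≤ Subgroup.normalizer (R : Set G) →
        (∀ g ∈ Subgroup.normalizer (R : Set G), ∀ x ∈ P, g * x * g⁻¹ ∈ P) → P ≤ R)
    (hN : Subgroup.normalizer (R : Set G) ≤ Subgroup.normalizer (U : Set G)) : U ≤ R := by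
  have h1 : U ⊓ Subgroup.normalizer (R : Set G) ≤ R := by
    apply hrad
    · exact hU.to_le inf_le_left
    · exact inf_le_right
    · rintro g hg x ⟨hxU, hxN⟩
      refine ⟨?_, ?_⟩
      · exact (Subgroup.mem_normalizer_iff.mp (hN hg) x).mp hxU
      · exact Subgroup.mul_mem _ (Subgroup.mul_mem _ hg hxN) (Subgroup.inv_mem _ hg)
  have hRN : R ≤ Subgroup.normalizer (U : Set G) := Subgroup.le_normalizer.trans hN
  have hP : IsPGroup p (R ⊔ U : Subgroup G) := hR.to_sup_of_normal_right' hU hRN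
  have hsup : ∀ x ∈ R ⊔ U, ∃ r ∈ R, ∃ u ∈ U, x = r * u := by
    intro x hx
    have h2 : x ∈ ((R ⊔ U : Subgroup G) : Set G) := hx
    rw [Subgroup.coe_mul_of_left_le_normalizer_right R U hRN] at h2
    obtain ⟨r, hr, u, hu, rfl⟩ := Set.mem_mul.mp h2
    exact ⟨r, hr, u, hu, rfl⟩
  by_contra hne
  have hnil : Group.IsNilpotent (R ⊔ U : Subgroup G) := hP.isNilpotent
  have h2 : R.subgroupOf (R ⊔ U) < ⊤ := by
    rw [lt_top_iff_ne_top, Ne, Subgroup.subgroupOf_eq_top]
    exact fun h => hne (le_sup_right.trans h)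
  have h3 := (Group.normalizerCondition_of_isNilpotent (G := (R ⊔ U : Subgroup G))) _ h2
  obtain ⟨x, hx, hxR⟩ := SetLike.exists_of_lt h3
  apply hxR
  rw [Subgroup.mem_subgroupOf]
  -- `x` normalises `R`
  have hxN : (x : G) ∈ Subgroup.normalizer (R : Set G) := by
    rw [Subgroup.mem_normalizer_iff]
    intro g
    have hx' := Subgroup.mem_normalizer_iff.mp hx
    constructor
    · intro hg
      exact (hx' ⟨g, (le_sup_left : R ≤ R ⊔ U) hg⟩).mp hg
    · intro hg
      have hgV : g ∈ R ⊔ U := by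
        have h4 := (R ⊔ U).mul_mem ((R ⊔ U).mul_mem ((R ⊔ U).inv_mem x.2)
          ((le_sup_left : R ≤ R ⊔ U) hg)) x.2
        have e : (x : G)⁻¹ * (x * g * (x : G)⁻¹) * x = g := by group
        rwa [e] at h4
      exact (hx' ⟨g, hgV⟩).mpr hg
  obtain ⟨r, hr, u, hu, hru⟩ := hsup x x.2
  have hu2 : u ∈ R := by
    apply h1
    refine ⟨hu, ?_⟩
    have e : u = r⁻¹ * x := by rw [hru]; group
    rw [e]
    exact Subgroup.mul_mem _ (Subgroup.inv_mem _ (Subgroup.le_normalizer hr)) hxN
  rw [hru]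
  exact R.mul_mem hr hu2

end gen

variable {K E : Type*} [Field K] [AddCommGroup E] [Module K E] (Φ : HForm K E)
  [FiniteDimensional K E] [Finite K] {p : ℕ} [Fact p.Prime]

omit [FiniteDimensional K E] in
/-- a `p`-group fixes a nonzero vector of a stable subspace -/
theorem exists_fixed [FiniteDimensional K E] (hp : (p : K) = 0) {R : Subgroup (SpecialLinearGroup K E)}
    (hR : IsPGroup p R) {V : Submodule K E} (hV : V ≠ ⊥) (hst : ∀ g ∈ R, ∀ x ∈ V, g x ∈ V) :
    ∃ v ∈ V, v ≠ 0 ∧ ∀ g ∈ R, g v = v := by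
  haveI : Finite E := Module.finite_of_finite K
  haveI : Nontrivial V := (Submodule.nontrivial_iff_ne_bot).mpr hV
  letI : MulAction R V :=
    { smul := fun g x => ⟨g.1 x.1, hst g.1 g.2 x.1 x.2⟩
      one_smul := fun x => rfl
      mul_smul := fun g h x => rfl }
  have hdvd : p ∣ Nat.card V := by
    rw [Module.natCard_eq_pow_finrank (K := K) (V := V)]
    have h1 : p ∣ Nat.card K := by
      haveI : CharP K p := by
        have h1 : ringChar K ∣ p := ringChar.dvd hp
        have h2 : ringChar K = p := by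
          rcases (Nat.dvd_prime (Fact.out : p.Prime)).mp h1 with h | h
          · exact absurd h (CharP.ringChar_ne_one)
          · exact h
        rw [← h2]
        exact ringChar.charP K
      haveI := Fintype.ofFinite K
      obtain ⟨n, _, hc⟩ := FiniteField.card K p
      rw [Nat.card_eq_fintype_card, hc]
      exact dvd_pow_self p n.2.ne'
    exact Dvd.dvd.pow h1 (Module.finrank_pos (R := K) (M := V)).ne'
  obtain ⟨v, hv, hv0⟩ := hR.exists_fixed_point_of_prime_dvd_card_of_fixed_point V hdvd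
    (a := 0) (by
      intro g
      apply Subtype.ext
      exact map_zero g.1.1)
  refine ⟨v.1, v.2, fun h => hv0 (Subtype.ext h.symm), fun g hg => ?_⟩
  exact congrArg Subtype.val (hv ⟨g, hg⟩)

theorem mem_fix {R' : Subgroup (SpecialLinearGroup K E)} {x : E} :
    x ∈ nxt R' ⊥ ↔ ∀ g ∈ R', g x = x := by
  constructor
  · intro hx g hg
    have := hx g hg
    rwa [Submodule.mem_bot, sub_eq_zero] at this
  · intro hx g hg
    rw [Submodule.mem_bot, sub_eq_zero]
    exact hx g hg

omit [FiniteDimensional K E] in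
/-- isometries preserving `C` preserve the orthogonal space -/
theorem perp_pres [FiniteDimensional K E] {C : Submodule K E} {g : SpecialLinearGroup K E}
    (hg : g ∈ Φ.Iso) (hgC : ∀ x ∈ C, g x ∈ C) : ∀ x ∈ Φ.perp C, g x ∈ Φ.perp C := by
  intro x hx y hy
  have h1 := inv_mem_of_forall hgC y hy
  have h2 := hg x (g⁻¹ y)
  rw [apply_inv_self'] at h2
  rw [h2]
  exact hx _ h1

/-- the radical of the space of fixed points of a nontrivial `p`-group of isometries -/
theorem fix_ne_bot (hp : (p : K) = 0) {R' : Subgroup (SpecialLinearGroup K E)}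
    (hR'p : IsPGroup p R') (hR'1 : R' ≠ ⊥) (hR'I : R' ≤ Φ.Iso) :
    nxt R' ⊥ ⊓ Φ.perp (nxt R' ⊥) ≠ ⊥ := by
  intro hW0
  have h1 : Φ.perp (nxt R' ⊥) = ⊥ := by
    by_contra h2
    obtain ⟨v, hv, hv0, hvf⟩ := exists_fixed hp hR'p h2 (by
      intro g hg x hx
      apply perp_pres Φ (hR'I hg) _ x hx
      intro y hy
      rw [mem_fix.mp hy g hg]
      exact hy)
    have h3 : v ∈ nxt R' ⊥ ⊓ Φ.perp (nxt R' ⊥) := ⟨mem_fix.mpr hvf, hv⟩
    rw [hW0, Submodule.mem_bot] at h3
    exact hv0 h3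
  have h2 : nxt R' ⊥ = ⊤ := by rw [← Φ.perp_perp (nxt R' ⊥), h1, Φ.perp_bot]
  apply hR'1
  rw [eq_bot_iff]
  intro g hg
  rw [Subgroup.mem_bot]
  apply toEnd_injective
  ext x
  exact mem_fix.mp (by rw [h2]; trivial) g hg

/-- **Borel-Tits for the classical groups.** -/
theorem lc_iso (hg : BTForm Φ) (hp : (p : K) = 0) {X : Subgroup (SpecialLinearGroup K E)}
    (hXI : X ≤ Φ.Iso) (hV : ∀ F, Φ.SD F → VF F ⊓ Φ.Iso ≤ X) {T : Type} [Group T] (π : X →* T)
    (hπ : Function.Surjective π)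
    (hk : ∀ x : X, π x = 1 ↔ (x : SpecialLinearGroup K E) ∈
      Subgroup.center (SpecialLinearGroup K E)) (n : ℕ) : IsLocalChar p n T := by
  haveI : Finite (SpecialLinearGroup K E) := finite_SL'
  have hkc : π.ker ≤ Subgroup.center X := by
    intro z hz
    have h1 := (hk z).mp (MonoidHom.mem_ker.mp hz)
    rw [Subgroup.mem_center_iff]
    intro g
    exact Subtype.ext (Subgroup.mem_center_iff.mp h1 g.1)
  have hkp : ¬ p ∣ Nat.card π.ker := by
    intro hd
    apply center_coprime (K := K) (E := E) hp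
    refine hd.trans ?_
    have h1 : π.ker.map X.subtype ≤ Subgroup.center (SpecialLinearGroup K E) := by
      rintro _ ⟨z, hz, rfl⟩
      exact (hk z).mp (MonoidHom.mem_ker.mp hz)
    rw [← Subgroup.card_map_of_injective X.subtype_injective]
    exact Subgroup.card_dvd_of_le h1
  refine lc_of_cent π hπ hkc hkp ?_ n
  intro R hR1 hR hrad h hh
  set R' := R.map X.subtype with hR'
  have hR'p : IsPGroup p R' := hR.map _
  have hR'1 : R' ≠ ⊥ := by
    intro h1
    apply hR1
    rw [eq_bot_iff]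
    intro x hx
    have h2 : (x : SpecialLinearGroup K E) ∈ R' := ⟨x, hx, rfl⟩
    rw [h1, Subgroup.mem_bot] at h2
    exact Subgroup.mem_bot.mpr (Subtype.ext h2)
  have hR'I : R' ≤ Φ.Iso := by
    rintro _ ⟨x, -, rfl⟩
    exact hXI x.2
  -- the fixed points
  set C := nxt R' ⊥ with hC
  have hmC : ∀ x, x ∈ C ↔ ∀ g ∈ R', g x = x := fun x => mem_fix
  have hperp : ∀ g ∈ Φ.Iso, (∀ x ∈ C, g x ∈ C) → ∀ x ∈ Φ.perp C, g x ∈ Φ.perp C :=
    fun g hg h => perp_pres Φ hg h
  set W := C ⊓ Φ.perp C with hW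
  have hiso : W ≤ Φ.perp W := inf_le_right.trans (Φ.perp_anti inf_le_left)
  have hW0 : W ≠ ⊥ := fix_ne_bot Φ hp hR'p hR'1 hR'I
  -- the normaliser of `R` preserves `C` and `W`
  have hNC : ∀ g ∈ Subgroup.normalizer (R : Set X), ∀ x ∈ C,
      (g : SpecialLinearGroup K E) x ∈ C := by
    intro g hg x hx
    rw [hmC] at hx ⊢
    rintro _ ⟨r, hr, rfl⟩
    have h1 : g⁻¹ * r * g ∈ R := by
      have := (Subgroup.mem_normalizer_iff.mp (Subgroup.inv_mem _ hg) r).mp hr
      rwa [inv_inv] at this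
    have h2 := hx _ ⟨_, h1, rfl⟩
    have h3 : (X.subtype (g⁻¹ * r * g)) = (g : SpecialLinearGroup K E)⁻¹ * r * g := rfl
    rw [h3] at h2
    have h4 : ((g : SpecialLinearGroup K E) * ((g : SpecialLinearGroup K E)⁻¹ * r * g)) x =
        (g : SpecialLinearGroup K E) x := by
      rw [mul_apply', h2]
    have h5 : (g : SpecialLinearGroup K E) * ((g : SpecialLinearGroup K E)⁻¹ * r * g) =
        (r : SpecialLinearGroup K E) * g := by group
    rw [h5, mul_apply'] at h4
    exact h4
  have hNW : ∀ g ∈ Subgroup.normalizer (R : Set X), ∀ x ∈ W,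
      (g : SpecialLinearGroup K E) x ∈ W := by
    intro g hg x hx
    exact ⟨hNC g hg x hx.1, hperp _ (hXI g.2) (hNC g hg) x hx.2⟩
  have hNP : ∀ g ∈ Subgroup.normalizer (R : Set X),
      (g : SpecialLinearGroup K E) ∈ PF (flag2 hiso) := by
    intro g hg i
    rcases i with _ | _ | _ | i
    · intro x hx
      have hx : x ∈ (⊥ : Submodule K E) := hx
      rw [Submodule.mem_bot] at hx
      rw [hx]
      have : (g : SpecialLinearGroup K E) (0 : E) = 0 := map_zero g.1.1
      rw [this]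
      exact Submodule.zero_mem _
    · exact hNW g hg
    · exact fun x hx => perp_stable Φ (hXI g.2) (hNW g hg) hx
    · exact fun x _ => Submodule.mem_top
  -- the unipotent radical
  set U : Subgroup X := (VF (flag2 hiso)).subgroupOf X with hU
  have hUp : IsPGroup p U :=
    (isPGroup_VF hp (flag2 hiso)).comap_of_injective X.subtype X.subtype_injective
  have hUR : U ≤ R := by
    apply le_of_radical hR hUp hrad
    intro g hg
    have h1 : (g : SpecialLinearGroup K E) ∈
        Subgroup.normalizer (VF (flag2 hiso) : Set (SpecialLinearGroup K E)) := by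
      rw [normalizer_VF]
      exact hNP g hg
    rw [Subgroup.mem_normalizer_iff]
    intro x
    exact Subgroup.mem_normalizer_iff.mp h1 (x : SpecialLinearGroup K E)
  have hcomm : ∀ v ∈ VF (flag2 hiso) ⊓ Φ.Iso,
      v * (h : SpecialLinearGroup K E) = (h : SpecialLinearGroup K E) * v := by
    intro v hv
    have h1 := hV _ (flag2_SD Φ hiso) hv
    have h2 : (⟨v, h1⟩ : X) ∈ R := hUR hv.1
    exact congrArg Subtype.val (Subgroup.mem_centralizer_iff.mp hh _ h2)
  have hhN : h ∈ Subgroup.normalizer (R : Set X) := Subgroup.centralizer_le_normalizer _ hh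
  obtain ⟨u, hu, hz⟩ := cent_iso Φ hW0 hiso (hXI h.2) (hNW h hhN) hcomm hg
  have huX := hV _ (flag2_SD Φ hiso) hu
  refine ⟨⟨u, huX⟩, hUR hu.1, ?_⟩
  rw [MonoidHom.mem_ker, hk]
  exact hz

end Vale.Agent.P180.R2.H259.Loc
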