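import Vale.Agent.P180.R2.H259.Loc.Rad
import Vale.Agent.P180.R2.H854.FormNorm
import Vale.Agent.P180.R2.H854.FormLevi

set_option linter.all false

/-!
P180: the isometries in the unipotent radical of the stabiliser of a totally isotropic subspace.
-/

namespace Vale.Agent.P180.R2.H259.Loc

open Module Vale.Agent.P180.R2.H854

variable {K E : Type*} [Field K] [AddCommGroup E] [Module K E]

/-- the flag of two subspaces -/
def flag2 {W W' : Submodule K E} (h : W ≤ W') : Flag K E where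
  car i := if i = 0 then ⊥ else if i = 1 then W else if i = 2 then W' else ⊤
  mono := by
    apply monotone_nat_of_le_succ
    intro i
    rcases i with _ | _ | _ | i
    · simp
    · simpa using h
    · simp
    · simp
  zero := by simp
  top := ⟨3, by simp⟩

section

variable (Φ : HForm K E)

theorem alt_sym (h : ∀ x, Φ.B x x = 0) (x y : E) : Φ.B y x = -Φ.B x y := by
  have h1 := h (x + y)
  rw [Φ.add_left, Φ.add_right, Φ.add_right, h x, h y, zero_add, add_zero] at h1
  exact (neg_eq_of_add_eq_zero_right h1).symm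

theorem alt_th (h : ∀ x, Φ.B x x = 0) (x y : E) : Φ.θ (Φ.B x y) = Φ.B x y := by
  by_cases hz : Φ.B x y = 0
  · rw [hz, map_zero]
  · have h1 : Φ.B ((Φ.B x y)⁻¹ • x) y = 1 := by rw [Φ.smul_left, inv_mul_cancel₀ hz]
    have h2 := Φ.symm ((Φ.B x y)⁻¹ • x) y
    rw [alt_sym Φ h, h1, map_one, mul_one] at h2
    have h3 := Φ.symm x y
    rw [alt_sym Φ h, ← h2, neg_one_mul] at h3
    exact (neg_injective h3).symm

variable [FiniteDimensional K E] [Finite K]

theorem flag2_perp {W : Submodule K E} (h : W ≤ Φ.perp W) :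
    ∀ i ≤ 3, Φ.perp (flag2 h i) = flag2 h (3 - i) := by
  intro i hi
  interval_cases i
  · exact Φ.perp_bot
  · rfl
  · exact Φ.perp_perp W
  · exact Φ.perp_top

theorem flag2_SD {W : Submodule K E} (h : W ≤ Φ.perp W) : Φ.SD (flag2 h) :=
  ⟨3, by norm_num, rfl, flag2_perp Φ h⟩

/-- Siegel transformations. -/
theorem siegel {c : K} (hc : c + Φ.θ c = 1 ∨ ∀ x, Φ.B x x = 0) {W : Submodule K E}
    (h : W ≤ Φ.perp W) {u w : E} (hw : w ∈ W) (hu : u ∈ Φ.perp W) :
    ∃ v ∈ VF (flag2 h) ⊓ Φ.Iso, ∀ y, v y - y = Φ.B y u • w - (Φ.θ Φ.ε * Φ.B y w) • u -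
      (c * (Φ.θ Φ.ε * Φ.B y w * Φ.B u u)) • w := by
  have hww : Φ.B w w = 0 := h hw w hw
  have hwu : Φ.B w u = 0 := (Φ.mem_perp'.mp hu) w hw
  set n := Φ.sg u w with hn
  have hnJ : n ∈ Jr (flag2 h) := Φ.sg_mem (flag2_perp Φ h) (i := 1) (by norm_num) hw hu
  have hm : n + c • (n * n) ∈ Jr (flag2 h) :=
    (Jr _).add_mem hnJ ((Jr _).smul_mem _ (Jr_mul hnJ (Jr_le_Pa _ hnJ)))
  have hcube : n * (n * n) = 0 := Φ.sg_cube hww hwu
  have hc' : (c + Φ.θ c - 1) • (n * n) = 0 := by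
    rcases hc with hc | hc
    · rw [hc, sub_self, zero_smul]
    · have h1 : n * n = 0 := by
        ext x
        rw [End.mul_apply, hn, Φ.sg_sg hww hwu, hc u, mul_zero, neg_zero, zero_smul]
        rfl
      rw [h1, smul_zero]
  refine ⟨oneAdd _ hm, ⟨oneAdd_mem _ hm, ?_⟩, ?_⟩
  · change oneAdd _ hm ∈ Φ.Iso
    rw [Φ.mem_Iso_iff, toEnd_oneAdd, Φ.adj_add, Φ.adj_one, Φ.adj_add, Φ.adj_smul,
      Φ.adj_mul, Φ.adj_sg, ← hn]
    have e : (1 + (-n + Φ.θ c • (-n * -n))) * (1 + (n + c • (n * n))) =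
        1 + (c + Φ.θ c - 1) • (n * n) + (Φ.θ c - c) • (n * (n * n)) +
          (Φ.θ c * c) • (n * (n * (n * n))) := by
      simp only [mul_add, add_mul, one_mul, mul_one, neg_mul, mul_neg, neg_neg,
        smul_mul_assoc, mul_smul_comm, mul_assoc]
      module
    rw [e, hcube, mul_zero, hc', smul_zero, smul_zero, add_zero, add_zero, add_zero]
  · intro y
    change (1 + (n + c • (n * n))) y - y = _
    rw [LinearMap.add_apply, End.one_apply, add_sub_cancel_left, LinearMap.add_apply,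
      LinearMap.smul_apply, End.mul_apply, hn, Φ.sg_sg hww hwu,
      Φ.sg_apply, neg_smul, smul_neg, smul_smul, ← sub_eq_add_neg]

/-- Transvections. -/
theorem transv (ha : ∀ x, Φ.B x x = 0) {W : Submodule K E} (h : W ≤ Φ.perp W) {w : E}
    (hw : w ∈ W) : ∃ v ∈ VF (flag2 h) ⊓ Φ.Iso, ∀ y, v y - y = Φ.B y w • w := by
  set n : End K E := (Φ.fn w).smulRight w with hn
  have hnx : ∀ x, n x = Φ.B x w • w := fun x => rfl
  have hnJ : n ∈ Jr (flag2 h) := by
    intro k x hx
    rw [hnx]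
    rcases k with _ | _ | k
    · have h1 : Φ.B x w = 0 := h (show x ∈ W from hx) w hw
      rw [h1, zero_smul]
      exact Submodule.zero_mem _
    · have h1 : Φ.B x w = 0 := (show x ∈ Φ.perp W from hx) w hw
      rw [h1, zero_smul]
      exact Submodule.zero_mem _
    · apply Submodule.smul_mem
      exact (flag2 h).mono (show 1 ≤ k + 1 + 1 by omega) hw
  have hnn : n * n = 0 := by
    ext x
    rw [End.mul_apply, hnx, hnx, Φ.smul_left, ha, mul_zero, zero_smul]
    rfl
  have hadj : Φ.adj n = -n := by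
    symm
    apply Φ.eq_adj
    intro x y
    rw [LinearMap.neg_apply, Φ.neg_right, hnx, hnx, Φ.smul_left, Φ.smul_right,
      alt_th Φ ha, alt_sym Φ ha y w]
    ring
  refine ⟨oneAdd _ hnJ, ⟨oneAdd_mem _ hnJ, ?_⟩, ?_⟩
  · change oneAdd _ hnJ ∈ Φ.Iso
    rw [Φ.mem_Iso_iff, toEnd_oneAdd, Φ.adj_add, Φ.adj_one, hadj]
    have e : (1 + -n) * (1 + n) = 1 - n * n := by noncomm_ring
    rw [e, hnn, sub_zero]
  · intro y
    change (1 + n) y - y = _
    rw [LinearMap.add_apply, End.one_apply, add_sub_cancel_left, hnx]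

end

/-- a map for which all vectors are eigenvectors is scalar -/
theorem scalar_on {W : Submodule K E} {h : End K E} (hh : ∀ w ∈ W, ∃ c : K, h w = c • w) :
    ∃ μ : K, ∀ w ∈ W, h w = μ • w := by
  by_cases hW : ∃ w ∈ W, w ≠ 0
  · obtain ⟨w0, hw0, h0⟩ := hW
    obtain ⟨μ, hμ⟩ := hh w0 hw0
    refine ⟨μ, fun w hw => ?_⟩
    obtain ⟨c, hc⟩ := hh w hw
    obtain ⟨d, hd⟩ := hh (w + w0) (W.add_mem hw hw0)
    rw [map_add, hc, hμ, smul_add] at hd
    have h1 : (c - d) • w = (d - μ) • w0 := by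
      rw [sub_smul, sub_smul, sub_eq_sub_iff_add_eq_add, hd]
      abel
    by_cases hcd : c = d
    · rw [hcd, sub_self, zero_smul] at h1
      have h2 := (smul_eq_zero.mp h1.symm).resolve_right h0
      rw [hc, hcd, sub_eq_zero.mp h2]
    · have h2 : w = ((c - d)⁻¹ * (d - μ)) • w0 := by
        rw [mul_smul, ← h1, smul_smul, inv_mul_cancel₀ (sub_ne_zero.mpr hcd), one_smul]
      rw [h2, map_smul, hμ, smul_comm]
  · push Not at hW
    exact ⟨0, fun w hw => by rw [hW w hw, map_zero, smul_zero]⟩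

end Vale.Agent.P180.R2.H259.Loc
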