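import Vale.Agent.P180.R2.H259.Loc.Cent

set_option linter.all false

/-!
P180: `PSL(E)` in characteristic `p`: the order is bounded by the fifth power of the order of a
Sylow `p`-subgroup; the final statement on `PSL(n, K)`.
-/

namespace Vale.Agent.P180.R2.H259.Loc

open Module Vale.Agent.P180.R2.H854 Vale.Agent.P180

variable {K E : Type*} [Field K] [AddCommGroup E] [Module K E] [FiniteDimensional K E]

/-- the flag of one subspace -/
def flag1 (W : Submodule K E) : Flag K E where
  car i := if i = 0 then ⊥ else if i = 1 then W else ⊤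
  mono := by
    apply monotone_nat_of_le_succ
    intro i
    rcases i with _ | _ | i
    · simp
    · simp
    · simp
  zero := by simp
  top := ⟨2, by simp⟩

theorem flag1_one (W : Submodule K E) : flag1 W 1 = W := rfl

theorem flag1_two (W : Submodule K E) (i : ℕ) : flag1 W (i + 2) = ⊤ := rfl

/-- the radical of the flag contains `Hom(E / W, W)` -/
theorem finrank_Jr (W : Submodule K E) :
    (finrank K E - finrank K W) * finrank K W ≤ finrank K (Jr (flag1 W)) := by
  let f : ((E ⧸ W) →ₗ[K] W) →ₗ[K] End K E :=
    (LinearMap.llcomp K E (E ⧸ W) E).flip W.mkQ ∘ₗ LinearMap.llcomp K (E ⧸ W) W E W.subtype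
  have hfa : ∀ a x, f a x = ((a (W.mkQ x) : W) : E) := fun a x => rfl
  have hmem : ∀ a, f a ∈ Jr (flag1 W) := by
    intro a i x hx
    rcases i with _ | _ | i
    · have hx : x ∈ W := hx
      have h1 : f a x = 0 := by
        rw [hfa, Submodule.mkQ_apply, (Submodule.Quotient.mk_eq_zero W).mpr hx, map_zero]
        rfl
      rw [h1]
      exact Submodule.zero_mem _
    · rw [hfa]
      exact (a (W.mkQ x)).2
    · exact Submodule.mem_top
  let g : ((E ⧸ W) →ₗ[K] W) →ₗ[K] Jr (flag1 W) := f.codRestrict _ hmem
  have hg : Function.Injective g := by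
    intro a b hab
    ext x
    have h1 : f a x = f b x := congrArg (fun z : Jr (flag1 W) => (z : End K E) x) hab
    exact h1
  have h1 := LinearMap.finrank_le_finrank_of_injective hg
  rw [Module.finrank_linearMap, Submodule.finrank_quotient] at h1
  exact h1

section fin

variable [Finite K] {p : ℕ} [Fact p.Prime]

/-- the order of the special linear group -/
theorem card_SL_le : Nat.card (SpecialLinearGroup K E) ≤ Nat.card K ^ (finrank K E * finrank K E) := by
  haveI : Finite (End K E) := Module.finite_of_finite K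
  have h1 := Nat.card_le_card_of_injective _ (toEnd_injective (K := K) (E := E))
  rwa [Module.natCard_eq_pow_finrank (K := K) (V := End K E), Module.finrank_linearMap] at h1

theorem arith {d : ℕ} (hd : 2 ≤ d) : d * d ≤ 5 * ((d - d / 2) * (d / 2)) := by
  obtain ⟨c, rfl | rfl⟩ : ∃ c, d = 2 * c ∨ d = 2 * c + 1 := ⟨d / 2, by omega⟩
  · have h1 : 2 * c / 2 = c := by omega
    have h2 : 2 * c - c = c := by omega
    rw [h1, h2]
    nlinarith
  · have h1 : (2 * c + 1) / 2 = c := by omega
    have h2 : 2 * c + 1 - c = c + 1 := by omega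
    rw [h1, h2]
    have h3 : 1 ≤ c := by omega
    nlinarith

variable {T : Type} [Group T] (π : SpecialLinearGroup K E →* T)

theorem card_or (hπ : Function.Surjective π)
    (hk : π.ker ≤ Subgroup.center (SpecialLinearGroup K E)) (hp : (p : K) = 0)
    (hd : 2 ≤ finrank K E) (n : ℕ) : Nat.card T ≤ n ^ 5 ∨ ∀ P : Sylow p T, n < Nat.card P := by
  haveI : Finite (SpecialLinearGroup K E) := finite_SL'
  haveI : Finite T := Finite.of_surjective _ hπ
  obtain ⟨W, hW⟩ : ∃ W : Submodule K E, finrank K W = finrank K E / 2 := by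
    obtain ⟨s, hs, hli⟩ := exists_finset_linearIndependent_of_le_finrank
      (R := K) (M := E) (Nat.div_le_self (finrank K E) 2)
    refine ⟨Submodule.span K (s : Set E), ?_⟩
    rw [finrank_span_finset_eq_card hli, hs]
  have hkp : ¬ p ∣ Nat.card π.ker := fun h => center_coprime (K := K) (E := E) hp
    (h.trans (Subgroup.card_dvd_of_le hk))
  have hq0 : 0 < Nat.card K := Nat.card_pos
  set F := flag1 W with hF
  have hVp := isPGroup_VF hp F
  -- `π` is injective on `VF F`
  have hinj : Function.Injective (π.comp (VF F).subtype) := by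
    rw [injective_iff_map_eq_one]
    intro x hx
    have hx1 : (x : SpecialLinearGroup K E) ∈ π.ker := MonoidHom.mem_ker.mpr hx
    obtain ⟨m, hm⟩ := hVp x
    have hm' : (x : SpecialLinearGroup K E) ^ p ^ m = 1 := congrArg Subtype.val hm
    have h5 : (x : SpecialLinearGroup K E) ^ Nat.card π.ker = 1 :=
      congrArg Subtype.val (pow_card_eq_one' (x := (⟨x, hx1⟩ : π.ker)))
    have h7 := Nat.dvd_gcd (orderOf_dvd_of_pow_eq_one hm') (orderOf_dvd_of_pow_eq_one h5)
    have h8 : Nat.Coprime (p ^ m) (Nat.card π.ker) :=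
      Nat.Coprime.pow_left _ ((Nat.Prime.coprime_iff_not_dvd Fact.out).mpr hkp)
    rw [h8.gcd_eq_one, Nat.dvd_one, orderOf_eq_one_iff] at h7
    exact Subtype.ext h7
  have hrc : Nat.card (π.comp (VF F).subtype).range = Nat.card (VF F) :=
    (Nat.card_congr (MonoidHom.ofInjective hinj).toEquiv).symm
  have hrp : IsPGroup p (π.comp (VF F).subtype).range :=
    hVp.of_surjective (π.comp (VF F).subtype).rangeRestrict
      (π.comp (VF F).subtype).rangeRestrict_surjective
  obtain ⟨P', hP'⟩ := hrp.exists_le_sylow
  have h1 : Nat.card (VF F) ≤ Nat.card P' := by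
    rw [← hrc]
    exact Nat.card_le_card_of_injective _ (Subgroup.inclusion_injective hP')
  have hT : Nat.card T ≤ Nat.card (VF F) ^ 5 := by
    calc Nat.card T ≤ Nat.card (SpecialLinearGroup K E) := Nat.card_le_card_of_surjective _ hπ
      _ ≤ Nat.card K ^ (finrank K E * finrank K E) := card_SL_le
      _ ≤ Nat.card K ^ (5 * ((finrank K E - finrank K E / 2) * (finrank K E / 2))) :=
          Nat.pow_le_pow_right hq0 (arith hd)
      _ ≤ Nat.card K ^ (finrank K (Jr F) * 5) := by
          apply Nat.pow_le_pow_right hq0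
          have h2 := finrank_Jr W
          rw [hW] at h2
          rw [mul_comm]
          exact Nat.mul_le_mul_right 5 h2
      _ = Nat.card (VF F) ^ 5 := by rw [card_VF, pow_mul]
  by_cases h : Nat.card T ≤ n ^ 5
  · exact Or.inl h
  · right
    intro P
    have h2 : Nat.card P = Nat.card P' := Nat.card_congr (P.equiv P').toEquiv
    by_contra h3
    apply h
    refine hT.trans (Nat.pow_le_pow_left ?_ 5)
    omega

end fin

end Vale.Agent.P180.R2.H259.Loc

namespace Vale.Agent.P180.R2.H259.Loc

open Module Vale.Agent.P180 Subgroup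

/-- **`PSL(d, K)` in the defining characteristic**: bounded, or of local characteristic `p` (up to
any order) with large Sylow `p`-subgroups. -/
theorem lc_psl {K : Type*} [Field K] [Finite K] {p : ℕ} [Fact p.Prime] (hp : (p : K) = 0) {d : ℕ}
    (hd : 2 ≤ d) (n : ℕ) {T : Type} [Group T]
    (e : T ≃* Matrix.SpecialLinearGroup (Fin d) K ⧸
      center (Matrix.SpecialLinearGroup (Fin d) K)) :
    IsLocalChar p n T ∧ (Nat.card T ≤ n ^ 5 ∨ ∀ P : Sylow p T, n < Nat.card P) := by
  let ε : Matrix.SpecialLinearGroup (Fin d) K ≃* _root_.SpecialLinearGroup K (Fin d → K) :=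
    Matrix.SpecialLinearGroup.toLin'_equiv
  let π : _root_.SpecialLinearGroup K (Fin d → K) →* T :=
    (e.symm.toMonoidHom.comp (QuotientGroup.mk' _)).comp ε.symm.toMonoidHom
  have hπ : Function.Surjective π :=
    (e.symm.surjective.comp (QuotientGroup.mk'_surjective _)).comp ε.symm.surjective
  have hcen : ∀ x, ε.symm x ∈ center (Matrix.SpecialLinearGroup (Fin d) K) ↔
      x ∈ center (_root_.SpecialLinearGroup K (Fin d → K)) := by
    intro x
    constructor
    · intro h
      rw [mem_center_iff] at h ⊢
      intro y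
      have h4 := congrArg ε (h (ε.symm y))
      rwa [map_mul, map_mul, ε.apply_symm_apply, ε.apply_symm_apply] at h4
    · intro h
      rw [mem_center_iff] at h ⊢
      intro y
      have h4 := congrArg ε.symm (h (ε y))
      rwa [map_mul, map_mul, ε.symm_apply_apply] at h4
  have hk : π.ker = center (_root_.SpecialLinearGroup K (Fin d → K)) := by
    ext x
    rw [MonoidHom.mem_ker, ← hcen]
    change e.symm ((ε.symm x : Matrix.SpecialLinearGroup (Fin d) K) : _ ⧸ center _) = 1 ↔ _
    rw [map_eq_one_iff e.symm e.symm.injective, QuotientGroup.eq_one_iff]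
  refine ⟨isLocalChar_of_surj π hπ hk hp n, ?_⟩
  exact card_or π hπ hk.le hp (by rw [Module.finrank_fin_fun]; exact hd) n

end Vale.Agent.P180.R2.H259.Loc
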