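import Vale.Agent.P180.R2.H259.Loc.IsoR
import Vale.Agent.P180.R2.H259.Loc.Size
import Mathlib.Data.Nat.Log

set_option linter.all false

/-!
P180: the classical groups in the defining characteristic: the order is bounded in terms of the
order of a Sylow `p`-subgroup.
-/

namespace Vale.Agent.P180.R2.H259.Loc

open Module Vale.Agent.P180.R2.H854 Vale.Agent.P180

/-- the bound -/
def bZ (n : ℕ) : ℕ := n ^ (Nat.log 2 n + 9)

theorem arith2 {q d n : ℕ} (hq : 2 ≤ q) (hd : 3 ≤ d) (h : q ^ (d - 2) ≤ n) :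
    q ^ (d * d) ≤ bZ n := by
  have hn : n ≠ 0 := by
    rintro rfl
    have : 0 < q ^ (d - 2) := by positivity
    omega
  have h1 : d * d ≤ (d - 2) * (d + 7) := by
    obtain ⟨c, rfl⟩ := Nat.exists_eq_add_of_le hd
    have : 3 + c - 2 = c + 1 := by omega
    rw [this]
    nlinarith
  have h2 : d + 7 ≤ Nat.log 2 n + 9 := by
    have h3 : 2 ^ (d - 2) ≤ n := (Nat.pow_le_pow_left hq _).trans h
    have h4 := Nat.le_log_of_pow_le (by norm_num) h3
    omega
  calc q ^ (d * d) ≤ q ^ ((d - 2) * (d + 7)) := Nat.pow_le_pow_right (by omega) h1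
    _ = (q ^ (d - 2)) ^ (d + 7) := pow_mul _ _ _
    _ ≤ n ^ (d + 7) := Nat.pow_le_pow_left h _
    _ ≤ n ^ (Nat.log 2 n + 9) := Nat.pow_le_pow_right (by omega) h2

variable {K E : Type*} [Field K] [AddCommGroup E] [Module K E] (Φ : HForm K E)
  [FiniteDimensional K E] [Finite K] {p : ℕ} [Fact p.Prime]

/-- many Siegel transformations -/
theorem card_VF_iso (hg : BTForm Φ) {w : E} (hw0 : w ≠ 0) (hww : Φ.B w w = 0) :
    ∃ (hiso : Submodule.span K {w} ≤ Φ.perp (Submodule.span K {w})),
      Nat.card K ^ (finrank K E - 2) ≤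
        Nat.card (VF (flag2 hiso) ⊓ Φ.Iso : Subgroup (SpecialLinearGroup K E)) := by
  classical
  haveI : Finite E := Module.finite_of_finite K
  haveI : Finite (SpecialLinearGroup K E) := finite_SL'
  have hiso : Submodule.span K {w} ≤ Φ.perp (Submodule.span K {w}) := by
    intro x hx y hy
    obtain ⟨a, rfl⟩ := Submodule.mem_span_singleton.mp hx
    obtain ⟨b, rfl⟩ := Submodule.mem_span_singleton.mp hy
    rw [Φ.smul_left, Φ.smul_right, hww, mul_zero, mul_zero]
  refine ⟨hiso, ?_⟩
  set W := Submodule.span K {w} with hW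
  have hwW : w ∈ W := Submodule.mem_span_singleton_self w
  obtain ⟨c, hc⟩ := exists_c Φ hg
  have hex : ∀ u : Φ.perp W, ∃ v : (VF (flag2 hiso) ⊓ Φ.Iso : Subgroup (SpecialLinearGroup K E)),
      ∀ y, v.1 y - y = Φ.B y u • w - (Φ.θ Φ.ε * Φ.B y w) • (u : E) -
        (c * (Φ.θ Φ.ε * Φ.B y w * Φ.B u u)) • w := by
    intro u
    obtain ⟨v, hv, h⟩ := siegel Φ hc hiso hwW u.2
    exact ⟨⟨v, hv⟩, h⟩
  choose f hf using hex
  -- the fibres
  have hfib : ∀ u u' : Φ.perp W, f u = f u' → (u : E) - u' ∈ W := by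
    intro u u' huu
    have key : ∀ x, x ∈ Φ.perp (Φ.perp W) → x ∈ W := fun x hx => by rwa [Φ.perp_perp] at hx
    apply key
    rw [Φ.mem_perp']
    intro y hy
    have h1 := hf u y
    have h2 := hf u' y
    rw [huu, h2] at h1
    have h3 : Φ.B y w = 0 := hy w hwW
    rw [h3] at h1
    simp only [mul_zero, zero_mul, zero_smul, sub_zero] at h1
    rw [← sub_eq_zero, ← sub_smul] at h1
    have h4 := (smul_eq_zero.mp h1).resolve_right hw0
    rw [Φ.sub_right]
    linear_combination -h4
  -- representatives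
  let r : (VF (flag2 hiso) ⊓ Φ.Iso : Subgroup (SpecialLinearGroup K E)) → Φ.perp W := fun v =>
    if h : ∃ u, f u = v then h.choose else 0
  have hr : ∀ u, f (r (f u)) = f u := by
    intro u
    have h : ∃ u', f u' = f u := ⟨u, rfl⟩
    have : r (f u) = h.choose := dif_pos h
    rw [this]
    exact h.choose_spec
  let g : Φ.perp W → (VF (flag2 hiso) ⊓ Φ.Iso : Subgroup (SpecialLinearGroup K E)) × W :=
    fun u => (f u, ⟨(u : E) - r (f u), hfib _ _ (hr u).symm⟩)
  have hgi : Function.Injective g := by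
    intro u u' h
    have h1 : f u = f u' := congrArg Prod.fst h
    have h2 : (u : E) - r (f u) = (u' : E) - r (f u') :=
      congrArg (fun z => ((Prod.snd z : W) : E)) h
    rw [h1] at h2
    exact Subtype.ext (sub_left_injective h2)
  have h1 := Nat.card_le_card_of_injective g hgi
  rw [Nat.card_prod] at h1
  have h2 : finrank K W = 1 := finrank_span_singleton hw0
  have h3 := Φ.finrank_add_finrank_perp W
  have hq1 : 1 < Nat.card K := Finite.one_lt_card
  rw [Module.natCard_eq_pow_finrank (K := K) (V := Φ.perp W),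
    Module.natCard_eq_pow_finrank (K := K) (V := W), h2, pow_one] at h1
  have h4 : W ≤ Φ.perp W := hiso
  have h5 := Submodule.finrank_mono h4
  have h6 : finrank K (Φ.perp W) = (finrank K E - 2) + 1 := by omega
  rw [h6, pow_succ] at h1
  exact Nat.le_of_mul_le_mul_right h1 (by omega)

/-- **the order of a classical group** in terms of its Sylow subgroup -/
theorem card_or_iso (hg : BTForm Φ) (hd : 3 ≤ finrank K E) (hp : (p : K) = 0)
    {X : Subgroup (SpecialLinearGroup K E)}
    (hXI : X ≤ Φ.Iso) (hV : ∀ F, Φ.SD F → VF F ⊓ Φ.Iso ≤ X) {T : Type} [Group T] (π : X →* T)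
    (hπ : Function.Surjective π)
    (hk : ∀ x : X, π x = 1 → (x : SpecialLinearGroup K E) ∈
      Subgroup.center (SpecialLinearGroup K E)) (hpT : p ∣ Nat.card T) (n : ℕ) :
    Nat.card T ≤ bZ n ∨ ∀ P : Sylow p T, n < Nat.card P := by
  haveI : Finite (SpecialLinearGroup K E) := finite_SL'
  haveI : Finite T := Finite.of_surjective _ hπ
  have hkp : ¬ p ∣ Nat.card π.ker := by
    intro hd
    apply center_coprime (K := K) (E := E) hp
    refine hd.trans ?_
    have h1 : π.ker.map X.subtype ≤ Subgroup.center (SpecialLinearGroup K E) := by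
      rintro _ ⟨z, hz, rfl⟩
      exact hk z (MonoidHom.mem_ker.mp hz)
    rw [← Subgroup.card_map_of_injective X.subtype_injective]
    exact Subgroup.card_dvd_of_le h1
  have hq1 : 1 < Nat.card K := Finite.one_lt_card
  -- an isotropic vector
  have hpX : p ∣ Nat.card X := hpT.trans (Subgroup.card_dvd_of_surjective π hπ)
  obtain ⟨x, hx⟩ := exists_prime_orderOf_dvd_card' p hpX
  set R' := Subgroup.zpowers (x : SpecialLinearGroup K E) with hR'
  have hxo : orderOf (x : SpecialLinearGroup K E) = p := by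
    rw [Subgroup.orderOf_coe, hx]
  have hR'p : IsPGroup p R' := by
    apply IsPGroup.of_card (n := 1)
    rw [hR', Nat.card_zpowers, hxo, pow_one]
  have hR'1 : R' ≠ ⊥ := by
    intro h
    rw [hR', Subgroup.zpowers_eq_bot] at h
    rw [h, orderOf_one] at hxo
    exact (Fact.out : p.Prime).one_lt.ne hxo
  have hR'I : R' ≤ Φ.Iso := by
    rw [hR', Subgroup.zpowers_le]
    exact hXI x.2
  obtain ⟨w, hw, hw0⟩ := Submodule.exists_mem_ne_zero_of_ne_bot
    (fix_ne_bot Φ hp hR'p hR'1 hR'I)
  have hww : Φ.B w w = 0 := hw.2 w hw.1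
  obtain ⟨hiso, hcard⟩ := card_VF_iso Φ hg hw0 hww
  set V := VF (flag2 hiso) ⊓ Φ.Iso with hVdef
  have hVX : V ≤ X := hV _ (flag2_SD Φ hiso)
  have hVp : IsPGroup p V := (isPGroup_VF hp (flag2 hiso)).to_le inf_le_left
  -- `π` is injective on `V`
  have hinj : Function.Injective (π.comp (Subgroup.inclusion hVX)) := by
    rw [injective_iff_map_eq_one]
    intro y hy
    have hy1 : Subgroup.inclusion hVX y ∈ π.ker := MonoidHom.mem_ker.mpr hy
    obtain ⟨m, hm⟩ := hVp y
    have hm' : (Subgroup.inclusion hVX y) ^ p ^ m = 1 := by rw [← map_pow, hm, map_one]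
    have h5 : (Subgroup.inclusion hVX y) ^ Nat.card π.ker = 1 :=
      congrArg Subtype.val (pow_card_eq_one' (x := (⟨_, hy1⟩ : π.ker)))
    have h7 := Nat.dvd_gcd (orderOf_dvd_of_pow_eq_one hm') (orderOf_dvd_of_pow_eq_one h5)
    have h8 : Nat.Coprime (p ^ m) (Nat.card π.ker) :=
      Nat.Coprime.pow_left _ ((Nat.Prime.coprime_iff_not_dvd Fact.out).mpr hkp)
    rw [h8.gcd_eq_one, Nat.dvd_one, orderOf_eq_one_iff] at h7
    exact Subgroup.inclusion_injective hVX (by rw [h7, map_one])
  set f := π.comp (Subgroup.inclusion hVX) with hf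
  have hrc : Nat.card f.range = Nat.card V :=
    (Nat.card_congr (MonoidHom.ofInjective hinj).toEquiv).symm
  have hrp : IsPGroup p f.range := hVp.of_surjective f.rangeRestrict f.rangeRestrict_surjective
  obtain ⟨P', hP'⟩ := hrp.exists_le_sylow
  have h1 : Nat.card V ≤ Nat.card P' := by
    rw [← hrc]
    exact Nat.card_le_card_of_injective _ (Subgroup.inclusion_injective hP')
  by_cases hn : ∀ P : Sylow p T, n < Nat.card P
  · exact Or.inr hn
  · left
    push Not at hn
    obtain ⟨P, hP⟩ := hn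
    have h2 : Nat.card P = Nat.card P' := Nat.card_congr (P.equiv P').toEquiv
    have h3 : Nat.card K ^ (finrank K E - 2) ≤ n := by omega
    calc Nat.card T ≤ Nat.card X := Nat.card_le_card_of_surjective _ hπ
      _ ≤ Nat.card (SpecialLinearGroup K E) :=
          Nat.card_le_card_of_injective _ X.subtype_injective
      _ ≤ Nat.card K ^ (finrank K E * finrank K E) := card_SL_le
      _ ≤ bZ n := arith2 hq1 hd h3

end Vale.Agent.P180.R2.H259.Loc
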