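import Mathlib.LinearAlgebra.SpecialLinearGroup
import Mathlib.LinearAlgebra.QuadraticForm.Basic

/-!
P180: orthogonal groups of even dimension in characteristic two (definition).
-/

namespace Vale.Agent.P180

/-- `Q` is a quadratic form with nondegenerate polar form, and `X` is the group `Ω(Q)` of the
isometries `g` of `Q` such that `g - 1` has even rank. -/
def IsOmega (K E : Type) [Field K] [AddCommGroup E] [Module K E] (Q : QuadraticForm K E)
    (X : Subgroup (SpecialLinearGroup K E)) : Prop :=
  (∀ x, (∀ y, Q (x + y) = Q x + Q y) → x = 0) ∧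
  ∀ g : SpecialLinearGroup K E, g ∈ X ↔ (∀ x, Q (g x) = Q x) ∧
    Even (Module.finrank K (LinearMap.range ((g.1 : E →ₗ[K] E) - LinearMap.id)))

/-- `T` is isomorphic to the group `Ω(Q)` of a nonsingular quadratic form `Q` on `E`. -/
def IsOmegaGroup (K E : Type) [Field K] [AddCommGroup E] [Module K E] (T : Type) [Group T] :
    Prop :=
  ∃ (Q : QuadraticForm K E) (X : Subgroup (SpecialLinearGroup K E)), IsOmega K E Q X ∧
    Nonempty (T ≃* X)

/-- `p = 2` and `T` is isomorphic to the group `Ω(Q)` of a nonsingular quadratic form `Q` of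
dimension `d ≥ 6` over a finite field `K` of characteristic two. -/
def OrthTwo (p : ℕ) (T : Type) [Group T] : Prop :=
  p = 2 ∧ ∃ (K : Type) (_ : Field K) (_ : Finite K) (d : ℕ), 2 ∣ Nat.card K ∧ 6 ≤ d ∧
    IsOmegaGroup K (Fin d → K) T

end Vale.Agent.P180
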