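import Vale.Agent.P180.R2.H259.Loc.QdL
import Vale.Agent.P180.R2.H259.Loc.QdDef
import Vale.Agent.P180.R2.H259.Loc.Cls

set_option linter.all false

/-!
P180: the orthogonal groups in characteristic two are of local characteristic two.
-/

namespace Vale.Agent.P180.R2.H259.Loc

open Module Vale.Agent.P180.R2.H854 Vale.Agent.P180

/-- **Orthogonal groups in characteristic two.** -/
theorem lc_orth {p : ℕ} [Fact p.Prime] {T : Type} [Group T] (h : OrthTwo p T)
    (hpT : p ∣ Nat.card T) (n : ℕ) :
    IsLocalChar p n T ∧ (Nat.card T ≤ bZ n ∨ ∀ P : Sylow p T, n < Nat.card P) := by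
  obtain ⟨rfl, K, _, _, d, hK, hd, q, X, ⟨hnd, hX⟩, ⟨e⟩⟩ := h
  have hadd : ∀ x y, q (x + y) = q x + q y + QuadraticMap.polar q x y := by
    intro x y
    rw [QuadraticMap.polar]
    ring
  let Φ : HForm K (Fin d → K) :=
    { B := fun x y => QuadraticMap.polar q x y
      θ := RingHom.id K
      ε := 1
      add_left := fun x y z => QuadraticMap.polar_add_left q x y z
      smul_left := fun a x y => by
        rw [QuadraticMap.polar_smul_left, smul_eq_mul]
      θθ := fun a => rfl
      εε := by rw [map_one, one_mul]
      symm := fun x y => by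
        rw [RingHom.id_apply, one_mul, QuadraticMap.polar_comm]
      nondeg := by
        intro x hx
        apply hnd
        intro y
        rw [hadd, hx y, add_zero] }
  have hp : ((2 : ℕ) : K) = 0 := char_of_dvd hK
  have hQ : QF Φ (fun x => q x) :=
    { two := by exact_mod_cast hp
      eps := rfl
      th := fun a => rfl
      add := hadd
      smul := fun a x => by
        rw [QuadraticMap.map_smul, smul_eq_mul, sq] }
  have hfd : finrank K (Fin d → K) = d := Module.finrank_fin_fun K
  have hX' : ∀ g, g ∈ X ↔ g ∈ IsoQ (fun x => q x) ∧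
      Even (finrank K (LinearMap.range (toEnd g - 1))) := hX
  have hk : ∀ x : X, e.symm.toMonoidHom x = 1 → x = 1 := fun x hx =>
    (MulEquiv.map_eq_one_iff e.symm).mp hx
  refine ⟨lc_quad hQ (by rw [hfd]; exact hd) hp hX' e.symm.toMonoidHom e.symm.surjective hk n, ?_⟩
  exact card_or_quad hQ (by rw [hfd]; omega) hp hX' e.symm.toMonoidHom e.symm.surjective hk hpT n

end Vale.Agent.P180.R2.H259.Loc
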