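import Vale.Agent.P180.R2.H259.Loc.QdR
import Vale.Agent.P180.R2.H259.Loc.IsoZ
import Mathlib.LinearAlgebra.QuadraticForm.Basic

set_option linter.all false

/-!
P180: **Borel-Tits for the orthogonal groups in characteristic two.**
-/

namespace Vale.Agent.P180.R2.H259.Loc

open Module Vale.Agent.P180.R2.H854 Vale.Agent.P180

variable {K E : Type*} [Field K] [AddCommGroup E] [Module K E] {Φ : HForm K E}
  {Q : E → K} (hQ : QF Φ Q) [FiniteDimensional K E] [Finite K] {p : ℕ} [Fact p.Prime]

include hQ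

/-- **Borel-Tits for the orthogonal groups in characteristic two** -/
theorem lc_quad (hd : 6 ≤ finrank K E) (hp : (p : K) = 0) {X : Subgroup (SpecialLinearGroup K E)}
    (hX : ∀ g, g ∈ X ↔ g ∈ IsoQ Q ∧ Even (finrank K (LinearMap.range (toEnd g - 1))))
    {T : Type} [Group T] (π : X →* T) (hπ : Function.Surjective π)
    (hk : ∀ x : X, π x = 1 → x = 1) (n : ℕ) : IsLocalChar p n T := by
  haveI : Finite (SpecialLinearGroup K E) := finite_SL'
  have hker : π.ker = ⊥ := by
    rw [eq_bot_iff]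
    intro x hx
    exact Subgroup.mem_bot.mpr (hk x (MonoidHom.mem_ker.mp hx))
  refine lc_of_cent π hπ (by rw [hker]; exact bot_le) (by
    rw [hker, Subgroup.card_bot]
    exact (Fact.out : p.Prime).one_lt.ne' ∘ Nat.dvd_one.mp) ?_ n
  intro R hR1 hR hrad h hh
  have hXI : X ≤ IsoQ Q := fun g hg => ((hX g).mp hg).1
  set R' := R.map X.subtype with hR'
  have hR'p : IsPGroup p R' := hR.map _
  have hR'1 : R' ≠ ⊥ := by
    intro h1
    apply hR1
    rw [eq_bot_iff]
    intro x hx
    have h2 : (x : SpecialLinearGroup K E) ∈ R' := ⟨x, hx, rfl⟩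
    rw [h1, Subgroup.mem_bot] at h2
    exact Subgroup.mem_bot.mpr (Subtype.ext h2)
  have hR'I : R' ≤ IsoQ Q := by
    rintro _ ⟨x, -, rfl⟩
    exact hXI x.2
  have hrk : ∀ g ∈ R', finrank K (LinearMap.range (toEnd g - 1)) ≠ 1 := by
    rintro _ ⟨x, -, rfl⟩ h1
    have h2 := ((hX x.1).mp x.2).2
    have h3 : finrank K (LinearMap.range (toEnd (x : SpecialLinearGroup K E) - 1)) = 1 := h1
    rw [h3] at h2
    exact absurd h2 (by decide)
  -- the fixed points
  set C := nxt R' ⊥ with hC
  have hmC : ∀ x, x ∈ C ↔ ∀ g ∈ R', g x = x := fun x => mem_fix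
  have hperp : ∀ g ∈ Φ.Iso, (∀ x ∈ C, g x ∈ C) → ∀ x ∈ Φ.perp C, g x ∈ Φ.perp C :=
    fun g hg h => perp_pres Φ hg h
  set W := sng hQ C with hWdef
  have hWC : W ≤ C ⊓ Φ.perp C := fun x hx => hx.1
  have hiso : W ≤ Φ.perp W :=
    (hWC.trans inf_le_right).trans (Φ.perp_anti (hWC.trans inf_le_left))
  have hWs : ∀ w ∈ W, Q w = 0 := fun w hw => hw.2
  have hW0 : W ≠ ⊥ := sng_ne_bot hQ hp hR'p hR'1 hR'I hrk
  -- the normaliser of `R` preserves `C` and `W`
  have hNC : ∀ g ∈ Subgroup.normalizer (R : Set X), ∀ x ∈ C,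
      (g : SpecialLinearGroup K E) x ∈ C := by
    intro g hg x hx
    rw [hmC] at hx ⊢
    rintro _ ⟨r, hr, rfl⟩
    have h1 : g⁻¹ * r * g ∈ R := by
      have := (Subgroup.mem_normalizer_iff.mp (Subgroup.inv_mem _ hg) r).mp hr
      rwa [inv_inv] at this
    have h2 := hx _ ⟨_, h1, rfl⟩
    have h3 : (X.subtype (g⁻¹ * r * g)) = (g : SpecialLinearGroup K E)⁻¹ * r * g := rfl
    rw [h3] at h2
    have h4 : ((g : SpecialLinearGroup K E) * ((g : SpecialLinearGroup K E)⁻¹ * r * g)) x =
        (g : SpecialLinearGroup K E) x := by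
      rw [mul_apply', h2]
    have h5 : (g : SpecialLinearGroup K E) * ((g : SpecialLinearGroup K E)⁻¹ * r * g) =
        (r : SpecialLinearGroup K E) * g := by group
    rw [h5, mul_apply'] at h4
    exact h4
  have hNW : ∀ g ∈ Subgroup.normalizer (R : Set X), ∀ x ∈ W,
      (g : SpecialLinearGroup K E) x ∈ W := by
    intro g hg x hx
    refine ⟨⟨hNC g hg x hx.1.1, hperp _ (hQ.le (hXI g.2)) (hNC g hg) x hx.1.2⟩, ?_⟩
    rw [(hXI g.2 : ∀ y, Q _ = Q y) x]
    exact hx.2
  have hNP : ∀ g ∈ Subgroup.normalizer (R : Set X),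
      (g : SpecialLinearGroup K E) ∈ PF (flag2 hiso) := by
    intro g hg i
    rcases i with _ | _ | _ | i
    · intro x hx
      have hx : x ∈ (⊥ : Submodule K E) := hx
      rw [Submodule.mem_bot] at hx
      rw [hx]
      have : (g : SpecialLinearGroup K E) (0 : E) = 0 := map_zero g.1.1
      rw [this]
      exact Submodule.zero_mem _
    · exact hNW g hg
    · exact fun x hx => perp_stable Φ (hQ.le (hXI g.2)) (hNW g hg) hx
    · exact fun x _ => Submodule.mem_top
  have hV : VF (flag2 hiso) ⊓ IsoQ Q ≤ X := by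
    intro v hv
    exact (hX v).mpr ⟨hv.2, even_rank hQ hiso hWs hv⟩
  -- the unipotent radical
  set U : Subgroup X := (VF (flag2 hiso)).subgroupOf X with hU
  have hUp : IsPGroup p U :=
    (isPGroup_VF hp (flag2 hiso)).comap_of_injective X.subtype X.subtype_injective
  have hUR : U ≤ R := by
    apply le_of_radical hR hUp hrad
    intro g hg
    have h1 : (g : SpecialLinearGroup K E) ∈
        Subgroup.normalizer (VF (flag2 hiso) : Set (SpecialLinearGroup K E)) := by
      rw [normalizer_VF]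
      exact hNP g hg
    rw [Subgroup.mem_normalizer_iff]
    intro x
    exact Subgroup.mem_normalizer_iff.mp h1 (x : SpecialLinearGroup K E)
  have hcomm : ∀ v ∈ VF (flag2 hiso) ⊓ IsoQ Q,
      v * (h : SpecialLinearGroup K E) = (h : SpecialLinearGroup K E) * v := by
    intro v hv
    have h1 := hV hv
    have h2 : (⟨v, h1⟩ : X) ∈ R := hUR hv.1
    exact congrArg Subtype.val (Subgroup.mem_centralizer_iff.mp hh _ h2)
  have hhN : h ∈ Subgroup.normalizer (R : Set X) := Subgroup.centralizer_le_normalizer _ hh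
  have hz := centQ hQ hW0 hiso hWs (hXI h.2) (hNW h hhN) hcomm hd
  refine ⟨h, hUR hz, ?_⟩
  rw [mul_inv_cancel]
  exact Subgroup.one_mem _

/-- many Siegel transformations -/
theorem card_VF_quad {w : E} (hw0 : w ≠ 0) (hww : Q w = 0) :
    ∃ (hiso : Submodule.span K {w} ≤ Φ.perp (Submodule.span K {w})),
      (∀ x ∈ Submodule.span K {w}, Q x = 0) ∧ Nat.card K ^ (finrank K E - 2) ≤
        Nat.card (VF (flag2 hiso) ⊓ IsoQ Q : Subgroup (SpecialLinearGroup K E)) := by
  classical
  haveI : Finite E := Module.finite_of_finite K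
  haveI : Finite (SpecialLinearGroup K E) := finite_SL'
  have hiso : Submodule.span K {w} ≤ Φ.perp (Submodule.span K {w}) := by
    intro x hx y hy
    obtain ⟨a, rfl⟩ := Submodule.mem_span_singleton.mp hx
    obtain ⟨b, rfl⟩ := Submodule.mem_span_singleton.mp hy
    rw [Φ.smul_left, Φ.smul_right, hQ.alt, mul_zero, mul_zero]
  have hWs : ∀ x ∈ Submodule.span K {w}, Q x = 0 := by
    intro x hx
    obtain ⟨a, rfl⟩ := Submodule.mem_span_singleton.mp hx
    rw [hQ.smul, hww, mul_zero]
  refine ⟨hiso, hWs, ?_⟩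
  set W := Submodule.span K {w} with hW
  have hwW : w ∈ W := Submodule.mem_span_singleton_self w
  have hex : ∀ u : Φ.perp W, ∃ v : (VF (flag2 hiso) ⊓ IsoQ Q : Subgroup (SpecialLinearGroup K E)),
      ∀ y, v.1 y - y = Φ.B y u • w - Φ.B y w • (u : E) - (Q u * Φ.B y w) • w := by
    intro u
    obtain ⟨v, hv, h⟩ := siegelQ hQ hiso hWs hwW u.2
    exact ⟨⟨v, hv⟩, h⟩
  choose f hf using hex
  -- the fibres
  have hfib : ∀ u u' : Φ.perp W, f u = f u' → (u : E) - u' ∈ W := by
    intro u u' huu
    have key : ∀ x, x ∈ Φ.perp (Φ.perp W) → x ∈ W := fun x hx => by rwa [Φ.perp_perp] at hx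
    apply key
    rw [Φ.mem_perp']
    intro y hy
    have h1 := hf u y
    have h2 := hf u' y
    rw [huu, h2] at h1
    have h3 : Φ.B y w = 0 := hy w hwW
    rw [h3] at h1
    simp only [mul_zero, zero_mul, zero_smul, sub_zero] at h1
    rw [← sub_eq_zero, ← sub_smul] at h1
    have h4 := (smul_eq_zero.mp h1).resolve_right hw0
    rw [Φ.sub_right]
    linear_combination -h4
  -- representatives
  let r : (VF (flag2 hiso) ⊓ IsoQ Q : Subgroup (SpecialLinearGroup K E)) → Φ.perp W := fun v =>
    if h : ∃ u, f u = v then h.choose else 0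
  have hr : ∀ u, f (r (f u)) = f u := by
    intro u
    have h : ∃ u', f u' = f u := ⟨u, rfl⟩
    have : r (f u) = h.choose := dif_pos h
    rw [this]
    exact h.choose_spec
  let g : Φ.perp W → (VF (flag2 hiso) ⊓ IsoQ Q : Subgroup (SpecialLinearGroup K E)) × W :=
    fun u => (f u, ⟨(u : E) - r (f u), hfib _ _ (hr u).symm⟩)
  have hgi : Function.Injective g := by
    intro u u' h
    have h1 : f u = f u' := congrArg Prod.fst h
    have h2 : (u : E) - r (f u) = (u' : E) - r (f u') :=
      congrArg (fun z => ((Prod.snd z : W) : E)) h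
    rw [h1] at h2
    exact Subtype.ext (sub_left_injective h2)
  have h1 := Nat.card_le_card_of_injective g hgi
  rw [Nat.card_prod] at h1
  have h2 : finrank K W = 1 := finrank_span_singleton hw0
  have h3 := Φ.finrank_add_finrank_perp W
  have hq1 : 1 < Nat.card K := Finite.one_lt_card
  rw [Module.natCard_eq_pow_finrank (K := K) (V := Φ.perp W),
    Module.natCard_eq_pow_finrank (K := K) (V := W), h2, pow_one] at h1
  have h4 : W ≤ Φ.perp W := hiso
  have h5 := Submodule.finrank_mono h4
  have h6 : finrank K (Φ.perp W) = (finrank K E - 2) + 1 := by omega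
  rw [h6, pow_succ] at h1
  exact Nat.le_of_mul_le_mul_right h1 (by omega)

/-- **the order of an orthogonal group** in terms of its Sylow subgroup -/
theorem card_or_quad (hd : 3 ≤ finrank K E) (hp : (p : K) = 0)
    {X : Subgroup (SpecialLinearGroup K E)}
    (hX : ∀ g, g ∈ X ↔ g ∈ IsoQ Q ∧ Even (finrank K (LinearMap.range (toEnd g - 1))))
    {T : Type} [Group T] (π : X →* T) (hπ : Function.Surjective π)
    (hk : ∀ x : X, π x = 1 → x = 1) (hpT : p ∣ Nat.card T) (n : ℕ) :
    Nat.card T ≤ bZ n ∨ ∀ P : Sylow p T, n < Nat.card P := by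
  haveI : Finite (SpecialLinearGroup K E) := finite_SL'
  haveI : Finite T := Finite.of_surjective _ hπ
  have hinj : Function.Injective π := (injective_iff_map_eq_one π).mpr hk
  have hXI : X ≤ IsoQ Q := fun g hg => ((hX g).mp hg).1
  have hq1 : 1 < Nat.card K := Finite.one_lt_card
  -- a singular vector
  have hpX : p ∣ Nat.card X := hpT.trans (Subgroup.card_dvd_of_surjective π hπ)
  obtain ⟨x, hx⟩ := exists_prime_orderOf_dvd_card' p hpX
  set R' := Subgroup.zpowers (x : SpecialLinearGroup K E) with hR'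
  have hxo : orderOf (x : SpecialLinearGroup K E) = p := by
    rw [Subgroup.orderOf_coe, hx]
  have hR'p : IsPGroup p R' := by
    apply IsPGroup.of_card (n := 1)
    rw [hR', Nat.card_zpowers, hxo, pow_one]
  have hR'1 : R' ≠ ⊥ := by
    intro h
    rw [hR', Subgroup.zpowers_eq_bot] at h
    rw [h, orderOf_one] at hxo
    exact (Fact.out : p.Prime).one_lt.ne hxo
  have hR'X : R' ≤ X := by
    rw [hR', Subgroup.zpowers_le]
    exact x.2
  have hrk : ∀ g ∈ R', finrank K (LinearMap.range (toEnd g - 1)) ≠ 1 := by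
    intro g hg h1
    have h2 := ((hX g).mp (hR'X hg)).2
    rw [h1] at h2
    exact absurd h2 (by decide)
  obtain ⟨w, hw, hw0⟩ := Submodule.exists_mem_ne_zero_of_ne_bot
    (sng_ne_bot hQ hp hR'p hR'1 (hR'X.trans hXI) hrk)
  obtain ⟨hiso, hWs, hcard⟩ := card_VF_quad hQ hw0 hw.2
  set V := VF (flag2 hiso) ⊓ IsoQ Q with hVdef
  have hVX : V ≤ X := fun v hv => (hX v).mpr ⟨hv.2, even_rank hQ hiso hWs hv⟩
  have hVp : IsPGroup p V := (isPGroup_VF hp (flag2 hiso)).to_le inf_le_left
  have hinj2 : Function.Injective (π.comp (Subgroup.inclusion hVX)) :=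
    hinj.comp (Subgroup.inclusion_injective hVX)
  set f := π.comp (Subgroup.inclusion hVX) with hf
  have hrc : Nat.card f.range = Nat.card V :=
    (Nat.card_congr (MonoidHom.ofInjective hinj2).toEquiv).symm
  have hrp : IsPGroup p f.range := hVp.of_surjective f.rangeRestrict f.rangeRestrict_surjective
  obtain ⟨P', hP'⟩ := hrp.exists_le_sylow
  have h1 : Nat.card V ≤ Nat.card P' := by
    rw [← hrc]
    exact Nat.card_le_card_of_injective _ (Subgroup.inclusion_injective hP')
  by_cases hn : ∀ P : Sylow p T, n < Nat.card P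
  · exact Or.inr hn
  · left
    push Not at hn
    obtain ⟨P, hP⟩ := hn
    have h2 : Nat.card P = Nat.card P' := Nat.card_congr (P.equiv P').toEquiv
    have h3 : Nat.card K ^ (finrank K E - 2) ≤ n := by omega
    calc Nat.card T ≤ Nat.card X := Nat.card_le_card_of_surjective _ hπ
      _ ≤ Nat.card (SpecialLinearGroup K E) :=
          Nat.card_le_card_of_injective _ X.subtype_injective
      _ ≤ Nat.card K ^ (finrank K E * finrank K E) := card_SL_le
      _ ≤ bZ n := arith2 hq1 hd h3

end Vale.Agent.P180.R2.H259.Loc
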