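import Vale.Agent.P180.R2.H259.Loc.QdS
import Vale.Agent.P180.R2.H259.Loc.IsoR
import Mathlib.FieldTheory.Finite.Basic

set_option linter.all false

/-!
P180: quadratic forms in characteristic two: the isometries in the unipotent radical of the
stabiliser of a totally singular subspace have even rank; fixed singular vectors.
-/

namespace Vale.Agent.P180.R2.H259.Loc

open Module Vale.Agent.P180.R2.H854 Vale.Agent.P180

section rel

variable {K E : Type*} [Field K] [AddCommGroup E] [Module K E] [FiniteDimensional K E] [Finite K]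
  {p : ℕ} [Fact p.Prime]

/-- a `p`-group fixes a point of a nonzero section -/
theorem exists_rel (hp : (p : K) = 0) {R : Subgroup (SpecialLinearGroup K E)} (hR : IsPGroup p R)
    {W V : Submodule K E} (hW : ∀ g ∈ R, ∀ x ∈ W, g x ∈ W) (hV : ∀ g ∈ R, ∀ x ∈ V, g x ∈ V)
    (hVW : ¬ V ≤ W) : ∃ v ∈ V, v ∉ W ∧ ∀ g ∈ R, g v - v ∈ W := by
  haveI : Finite E := Module.finite_of_finite K
  haveI : Finite (E ⧸ W) := Finite.of_surjective _ W.mkQ_surjective
  obtain ⟨x0, hx0, hx0W⟩ := SetLike.not_le_iff_exists.mp hVW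
  set S := V.map W.mkQ with hS
  have hmk : ∀ x, W.mkQ x = 0 ↔ x ∈ W := fun x => by
    rw [Submodule.mkQ_apply, Submodule.Quotient.mk_eq_zero]
  haveI : Nontrivial S := by
    refine ⟨⟨⟨W.mkQ x0, ⟨x0, hx0, rfl⟩⟩, 0, ?_⟩⟩
    intro h
    exact hx0W ((hmk x0).mp (congrArg Subtype.val h))
  have hst : ∀ (g : R), W ≤ W.comap (g.1.1 : E →ₗ[K] E) := fun g x hx => hW g.1 g.2 x hx
  have hsm : ∀ (g : R) (y : E), W.mapQ W (g.1.1 : E →ₗ[K] E) (hst g) (W.mkQ y) = W.mkQ (g.1 y) :=
    fun g y => rfl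
  have hSS : ∀ (g : R) (z : E ⧸ W), z ∈ S → W.mapQ W (g.1.1 : E →ₗ[K] E) (hst g) z ∈ S := by
    rintro g _ ⟨y, hy, rfl⟩
    rw [hsm]
    exact ⟨g.1 y, hV g.1 g.2 y hy, rfl⟩
  letI : MulAction R S :=
    { smul := fun g x => ⟨W.mapQ W (g.1.1 : E →ₗ[K] E) (hst g) x.1, hSS g x.1 x.2⟩
      one_smul := by
        rintro ⟨x, hx⟩
        obtain ⟨y, rfl⟩ := W.mkQ_surjective x
        rfl
      mul_smul := by
        rintro g h ⟨x, hx⟩
        obtain ⟨y, rfl⟩ := W.mkQ_surjective x
        rfl }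
  have hdvd : p ∣ Nat.card S := by
    rw [Module.natCard_eq_pow_finrank (K := K) (V := S)]
    have h1 : p ∣ Nat.card K := by
      haveI : CharP K p := by
        have h1 : ringChar K ∣ p := ringChar.dvd hp
        have h2 : ringChar K = p := by
          rcases (Nat.dvd_prime (Fact.out : p.Prime)).mp h1 with h | h
          · exact absurd h (CharP.ringChar_ne_one)
          · exact h
        rw [← h2]
        exact ringChar.charP K
      haveI := Fintype.ofFinite K
      obtain ⟨n, _, hc⟩ := FiniteField.card K p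
      rw [Nat.card_eq_fintype_card, hc]
      exact dvd_pow_self p n.2.ne'
    exact Dvd.dvd.pow h1 (Module.finrank_pos (R := K) (M := S)).ne'
  obtain ⟨v, hv, hv0⟩ := hR.exists_fixed_point_of_prime_dvd_card_of_fixed_point S hdvd
    (a := 0) (by
      intro g
      apply Subtype.ext
      exact map_zero _)
  obtain ⟨y, hy, hyv⟩ := v.2
  refine ⟨y, hy, ?_, ?_⟩
  · intro hyW
    apply hv0
    apply Subtype.ext
    rw [← hyv]
    exact ((hmk y).mpr hyW).symm
  · intro g hg
    have h1 := congrArg Subtype.val (hv ⟨g, hg⟩)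
    have h2 : W.mapQ W (g.1 : E →ₗ[K] E) (hst ⟨g, hg⟩) v.1 = v.1 := h1
    rw [← hyv, hsm ⟨g, hg⟩] at h2
    rw [← hmk, map_sub]
    exact sub_eq_zero.mpr h2

end rel

variable {K E : Type*} [Field K] [AddCommGroup E] [Module K E] {Φ : HForm K E}
  {Q : E → K} (hQ : QF Φ Q) [FiniteDimensional K E] [Finite K]

include hQ in
/-- **the isometries in the unipotent radical have even rank** -/
theorem even_rank {W : Submodule K E} (hiso : W ≤ Φ.perp W) (hW : ∀ w ∈ W, Q w = 0)
    {v : SpecialLinearGroup K E} (hv : v ∈ VF (flag2 hiso) ⊓ IsoQ Q) :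
    Even (finrank K (LinearMap.range (toEnd v - 1))) := by
  haveI : Finite E := Module.finite_of_finite K
  set N : End K E := toEnd v - 1 with hN
  have hNx : ∀ x, N x = v x - x := fun x => rfl
  have hJ : N ∈ Jr (flag2 hiso) := (mem_VF_iff).mp hv.1
  have n0 : ∀ x ∈ W, N x = 0 := fun x hx => (Submodule.mem_bot K).mp (hJ 0 x hx)
  have n1 : ∀ x ∈ Φ.perp W, N x ∈ W := fun x hx => hJ 1 x hx
  have hvI : ∀ x y, Φ.B (v x) (v y) = Φ.B x y := hQ.le hv.2
  have hr : ∀ x y, Φ.B (N x) y + Φ.B x (N y) + Φ.B (N x) (N y) = 0 := by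
    intro x y
    have h1 := hvI x y
    have e1 : v x = x + N x := by rw [hNx]; abel
    have e2 : v y = y + N y := by rw [hNx]; abel
    rw [e1, e2, Φ.add_left, Φ.add_right, Φ.add_right] at h1
    linear_combination h1
  have qr : ∀ x, Q (N x) + Φ.B x (N x) = 0 := by
    intro x
    have h1 := hv.2 x
    have e1 : v x = x + N x := by rw [hNx]; abel
    rw [e1, hQ.add] at h1
    linear_combination h1
  set A := (Φ.perp W).map N with hA
  have hAW : A ≤ W := by
    rintro _ ⟨x, hx, rfl⟩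
    exact n1 x hx
  let S : Set (Submodule K E) := {U | A ≤ U ∧ U ≤ LinearMap.range N ∧ U ≤ W ∧
    ∀ u ∈ U, ∀ y, N y ∈ U → Φ.B u y = 0}
  have hAS : A ∈ S := by
    refine ⟨le_rfl, ?_, hAW, ?_⟩
    · rintro _ ⟨x, -, rfl⟩
      exact ⟨x, rfl⟩
    · rintro _ ⟨x, hx, rfl⟩ y hy
      have h1 := hr x y
      have h2 : Φ.B x (N y) = 0 := hx _ (hAW hy)
      have h3 : Φ.B (N x) (N y) = 0 := hiso (n1 x hx) _ (hAW hy)
      rw [h2, h3, add_zero, add_zero] at h1
      exact h1
  obtain ⟨U, ⟨hAU, hUR, hUW, hU⟩, hmax⟩ :=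
    (wellFounded_gt : WellFounded ((· > ·) : Submodule K E → Submodule K E → Prop)).has_min S
      ⟨A, hAS⟩
  -- the kernel and the range
  have hker : Φ.perp (LinearMap.range N) ≤ LinearMap.ker N := by
    intro z hz
    rw [LinearMap.mem_ker]
    apply Φ.nondeg
    intro x
    have h1 := hr z (v⁻¹ x)
    have h2 : Φ.B z (N (v⁻¹ x)) = 0 := hz _ ⟨_, rfl⟩
    rw [h2, add_zero, ← Φ.add_right] at h1
    have e : v⁻¹ x + N (v⁻¹ x) = x := by
      rw [hNx, apply_inv_self']
      abel
    rwa [e] at h1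
  have hkr : Φ.perp (LinearMap.ker N) ≤ LinearMap.range N := by
    have h1 := Φ.perp_anti hker
    rwa [Φ.perp_perp] at h1
  set P := U.comap N with hP
  have hWP : Φ.perp W ≤ P := fun x hx => hAU ⟨x, hx, rfl⟩
  have hkP : LinearMap.ker N ≤ P := by
    intro x hx
    rw [LinearMap.mem_ker] at hx
    rw [hP, Submodule.mem_comap, hx]
    exact U.zero_mem
  have hUP : U ≤ Φ.perp P := fun u hu y hy => hU u hu y hy
  have hPU : Φ.perp P ≤ U := by
    intro r hrP
    by_contra hrU
    have hrR : r ∈ LinearMap.range N := hkr (Φ.perp_anti hkP hrP)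
    have hrW : r ∈ W := by
      have h1 := Φ.perp_anti hWP hrP
      rwa [Φ.perp_perp] at h1
    obtain ⟨yr, hyr⟩ := hrR
    refine hmax (U ⊔ Submodule.span K {r}) ⟨hAU.trans le_sup_left, ?_, ?_, ?_⟩ ?_
    · refine sup_le hUR ?_
      rw [Submodule.span_singleton_le_iff_mem]
      exact ⟨yr, hyr⟩
    · refine sup_le hUW ?_
      rwa [Submodule.span_singleton_le_iff_mem]
    · intro u' hu' y hy
      obtain ⟨u, hu, s, hs, rfl⟩ := Submodule.mem_sup.mp hu'
      obtain ⟨a, rfl⟩ := Submodule.mem_span_singleton.mp hs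
      obtain ⟨u1, hu1, s1, hs1, hNy⟩ := Submodule.mem_sup.mp hy
      obtain ⟨b, rfl⟩ := Submodule.mem_span_singleton.mp hs1
      have hy1 : N (y - b • yr) ∈ U := by
        rw [map_sub, map_smul, hyr, ← hNy, add_sub_cancel_right]
        exact hu1
      have e : y = (y - b • yr) + b • yr := by abel
      have h1 : Φ.B u (y - b • yr) = 0 := hU u hu _ hy1
      have h2 : Φ.B r (y - b • yr) = 0 := hrP _ hy1
      have h3 : Φ.B r yr = 0 := by
        have h4 := qr yr
        rw [hyr, hW r hrW, zero_add] at h4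
        exact Φ.eq_zero_comm h4
      have h4 : Φ.B u yr = 0 := by
        obtain ⟨yu, hyu⟩ := hUR hu
        have h5 := hr yu yr
        have h6 : Φ.B r yu = 0 := hrP yu (by rw [hP, Submodule.mem_comap, hyu]; exact hu)
        rw [hyu, hyr, Φ.eq_zero_comm h6, hiso (hUW hu) r hrW, add_zero, add_zero] at h5
        exact h5
      rw [e, Φ.add_left, Φ.add_right, Φ.add_right, h1, Φ.smul_left, Φ.smul_left, h2, hQ.smul_r,
        hQ.smul_r, h3, h4]
      ring
    · refine lt_of_le_of_ne le_sup_left ?_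
      intro heq
      apply hrU
      rw [heq]
      exact Submodule.mem_sup_right (Submodule.mem_span_singleton_self r)
  have hUeq : Φ.perp P = U := le_antisymm hPU hUP
  -- dimensions
  have d1 := Φ.finrank_add_finrank_perp P
  rw [hUeq] at d1
  have d2 := LinearMap.finrank_range_add_finrank_ker N
  have d3 := LinearMap.finrank_range_add_finrank_ker (N.domRestrict P)
  have d4 : finrank K (LinearMap.range (N.domRestrict P)) = finrank K U := by
    have : LinearMap.range (N.domRestrict P) = U := by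
      apply le_antisymm
      · rintro _ ⟨x, rfl⟩
        exact x.2
      · intro u hu
        obtain ⟨y, hy⟩ := hUR hu
        exact ⟨⟨y, by rw [hP, Submodule.mem_comap, hy]; exact hu⟩, hy⟩
    rw [this]
  have d5 : finrank K (LinearMap.ker (N.domRestrict P)) = finrank K (LinearMap.ker N) := by
    have : LinearMap.ker (N.domRestrict P) = (LinearMap.ker N).comap P.subtype := by
      ext x
      rfl
    rw [this]
    exact LinearEquiv.finrank_eq (Submodule.comapSubtypeEquivOfLe hkP)
  refine ⟨finrank K U, ?_⟩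
  omega

variable {p : ℕ} [Fact p.Prime]

include hQ in
/-- the singular vectors in the radical of `C` -/
def sng (C : Submodule K E) : Submodule K E where
  carrier := {x | x ∈ C ⊓ Φ.perp C ∧ Q x = 0}
  zero_mem' := ⟨Submodule.zero_mem _, hQ.zero⟩
  add_mem' := by
    rintro x y ⟨hx, hx'⟩ ⟨hy, hy'⟩
    refine ⟨Submodule.add_mem _ hx hy, ?_⟩
    rw [hQ.add, hx', hy', hx.2 y hy.1]
    ring
  smul_mem' := by
    rintro a x ⟨hx, hx'⟩
    refine ⟨Submodule.smul_mem _ a hx, ?_⟩
    rw [hQ.smul, hx', mul_zero]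

theorem mem_sng {C : Submodule K E} {x : E} :
    x ∈ sng hQ C ↔ x ∈ C ⊓ Φ.perp C ∧ Q x = 0 := Iff.rfl

include hQ in
/-- a nontrivial `p`-group of isometries without transvections fixes a singular vector -/
theorem sng_ne_bot (hp : (p : K) = 0) {R' : Subgroup (SpecialLinearGroup K E)}
    (hR'p : IsPGroup p R') (hR'1 : R' ≠ ⊥) (hR'I : R' ≤ IsoQ Q)
    (hrk : ∀ g ∈ R', finrank K (LinearMap.range (toEnd g - 1)) ≠ 1) :
    sng hQ (nxt R' ⊥) ≠ ⊥ := by
  intro hS
  set C := nxt R' ⊥ with hC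
  have hIso : R' ≤ Φ.Iso := hR'I.trans hQ.le
  obtain ⟨x, hx, hx0⟩ := Submodule.exists_mem_ne_zero_of_ne_bot
    (fix_ne_bot Φ hp hR'p hR'1 hIso)
  have hfix : ∀ z ∈ C, ∀ g ∈ R', g z = z := fun z hz => mem_fix.mp hz
  have hQx : Q x ≠ 0 := by
    intro h
    apply hx0
    have h1 : x ∈ sng hQ C := ⟨hx, h⟩
    rwa [hS, Submodule.mem_bot] at h1
  have hperp : ∀ g ∈ R', ∀ z ∈ Φ.perp C, g z ∈ Φ.perp C := by
    intro g hg z hz
    apply perp_pres Φ (hIso hg) _ z hz
    intro y hy
    rw [hfix y hy g hg]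
    exact hy
  by_cases hle : Φ.perp C ≤ Submodule.span K {x}
  · obtain ⟨g, hg, hg1⟩ := (Subgroup.ne_bot_iff_exists_ne_one).mp hR'1 |>.elim
      (fun g hg => (⟨g.1, g.2, fun h => hg (Subtype.ext h)⟩ : ∃ g ∈ R', g ≠ 1))
    apply hrk g hg
    have h1 : LinearMap.range (toEnd g - 1) ≤ Submodule.span K {x} := by
      rintro _ ⟨y, rfl⟩
      apply hle
      intro c hc
      change Φ.B (g y - y) c = 0
      rw [Φ.sub_left, sub_eq_zero]
      have h2 := hIso hg y c
      rwa [hfix c hc g hg] at h2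
    have h2 := Submodule.finrank_mono h1
    rw [finrank_span_singleton hx0] at h2
    have h3 : finrank K (LinearMap.range (toEnd g - 1)) ≠ 0 := by
      intro h3
      rw [Submodule.finrank_eq_zero, LinearMap.range_eq_bot, sub_eq_zero] at h3
      exact hg1 (toEnd_injective h3)
    omega
  · have hxC : x ∈ C := hx.1
    have hxs : ∀ g ∈ R', ∀ z ∈ Submodule.span K {x}, g z ∈ Submodule.span K {x} := by
      intro g hg z hz
      obtain ⟨a, rfl⟩ := Submodule.mem_span_singleton.mp hz
      rw [hfix _ (C.smul_mem a hxC) g hg]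
      exact hz
    obtain ⟨y, hy, hyx, hyf⟩ := exists_rel hp hR'p hxs hperp hle
    have hByx : Φ.B y x = 0 := hy x hxC
    -- `y` is fixed
    have hyC : y ∈ C := by
      rw [hC, mem_fix]
      intro g hg
      obtain ⟨a, ha⟩ := Submodule.mem_span_singleton.mp (hyf g hg)
      have e : g y = y + a • x := by rw [ha]; abel
      have h1 := hR'I hg y
      rw [e, hQ.add, hQ.smul, hQ.smul_r, hByx, mul_zero, add_zero] at h1
      have h2 : a ^ 2 * Q x = 0 := by linear_combination h1
      have h3 : a = 0 := by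
        have := (mul_eq_zero.mp h2).resolve_right hQx
        exact pow_eq_zero_iff two_ne_zero |>.mp this
      rw [e, h3, zero_smul, add_zero]
    -- a combination is singular
    haveI : Fintype K := Fintype.ofFinite K
    have hchar : ringChar K = 2 := by
      have h1 : ringChar K ∣ 2 := ringChar.dvd (by exact_mod_cast hQ.two)
      rcases (Nat.dvd_prime Nat.prime_two).mp h1 with h | h
      · exact absurd h (CharP.ringChar_ne_one)
      · exact h
    obtain ⟨a, ha⟩ := FiniteField.isSquare_of_char_two hchar (Q y * (Q x)⁻¹)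
    have h1 : y + a • x ∈ sng hQ C := by
      refine ⟨⟨C.add_mem hyC (C.smul_mem a hxC),
        (Φ.perp C).add_mem hy ((Φ.perp C).smul_mem a hx.2)⟩, ?_⟩
      rw [hQ.add, hQ.smul, hQ.smul_r, hByx, mul_zero, add_zero, sq, ← ha, mul_assoc,
        inv_mul_cancel₀ hQx, mul_one]
      have : Q y + Q y = 2 * Q y := by ring
      rw [this, hQ.two, zero_mul]
    rw [hS, Submodule.mem_bot] at h1
    apply hyx
    have h2 : y = (-a) • x := by
      rw [neg_smul]
      exact eq_neg_of_add_eq_zero_left h1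
    rw [h2]
    exact Submodule.smul_mem _ _ (Submodule.mem_span_singleton_self x)

end Vale.Agent.P180.R2.H259.Loc
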