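import Vale.Agent.P180.R2.H259.Loc.IsoC

set_option linter.all false

/-!
P180: quadratic forms in characteristic two: Siegel transformations and the centraliser of the
isometries in the unipotent radical of the stabiliser of a totally singular subspace.
-/

namespace Vale.Agent.P180.R2.H259.Loc

open Module Vale.Agent.P180.R2.H854

variable {K E : Type*} [Field K] [AddCommGroup E] [Module K E] (Φ : HForm K E)

/-- `Q` is a quadratic form with polar form `B`, in characteristic two -/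
structure QF (Q : E → K) : Prop where
  two : (2 : K) = 0
  eps : Φ.ε = 1
  th : ∀ a, Φ.θ a = a
  add : ∀ x y, Q (x + y) = Q x + Q y + Φ.B x y
  smul : ∀ a x, Q (a • x) = a ^ 2 * Q x

/-- the isometries of `Q` -/
def IsoQ (Q : E → K) : Subgroup (SpecialLinearGroup K E) where
  carrier := {g | ∀ x, Q (g x) = Q x}
  mul_mem' := by
    intro a b ha hb x
    rw [mul_apply', ha, hb]
  one_mem' := fun x => rfl
  inv_mem' := by
    intro a ha x
    have h1 := ha (a⁻¹ x)
    rw [apply_inv_self'] at h1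
    exact h1.symm

variable {Φ} {Q : E → K} (hQ : QF Φ Q)

include hQ

theorem QF.zero : Q 0 = 0 := by
  have h := hQ.smul 0 0
  rwa [smul_zero, zero_pow two_ne_zero, zero_mul] at h

theorem QF.neg (x : E) : Q (-x) = Q x := by
  have h := hQ.smul (-1) x
  rwa [neg_one_smul, neg_one_sq, one_mul] at h

theorem QF.neg_eq (a : K) : -a = a := by
  have h : a + a = 0 := by
    have : a + a = 2 * a := by ring
    rw [this, hQ.two, zero_mul]
  exact neg_eq_of_add_eq_zero_left h

theorem QF.alt (x : E) : Φ.B x x = 0 := by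
  have h := hQ.add x (-x)
  rw [add_neg_cancel, hQ.zero, hQ.neg, Φ.neg_right, hQ.neg_eq] at h
  have h2 : Q x + Q x = 2 * Q x := by ring
  rw [h2, hQ.two, zero_mul, zero_add] at h
  exact h.symm

theorem QF.sym (x y : E) : Φ.B y x = Φ.B x y := by
  rw [Φ.symm x y, hQ.eps, hQ.th, one_mul]

theorem QF.smul_r (a : K) (x y : E) : Φ.B x (a • y) = a * Φ.B x y := by
  rw [Φ.smul_right, hQ.th]

theorem QF.le : IsoQ Q ≤ Φ.Iso := by
  intro g hg x y
  have h1 := hQ.add (g x) (g y)
  have e : g x + g y = g (x + y) := (map_add g.1 x y).symm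
  rw [e, hg, hg, hg, hQ.add] at h1
  exact (add_left_cancel h1).symm

variable [FiniteDimensional K E] [Finite K] {W : Submodule K E}

/-- Siegel transformations in characteristic two -/
theorem siegelQ (h : W ≤ Φ.perp W) (hW : ∀ w ∈ W, Q w = 0) {u w : E} (hw : w ∈ W)
    (hu : u ∈ Φ.perp W) :
    ∃ v ∈ VF (flag2 h) ⊓ IsoQ Q, ∀ y, v y - y = Φ.B y u • w - Φ.B y w • u -
      (Q u * Φ.B y w) • w := by
  have hww : Φ.B w w = 0 := h hw w hw
  have hwu : Φ.B w u = 0 := (Φ.mem_perp'.mp hu) w hw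
  have huw : Φ.B u w = 0 := Φ.eq_zero_comm hwu
  have hθε : Φ.θ Φ.ε = 1 := by rw [hQ.eps, map_one]
  set n := Φ.sg u w with hn
  have hnJ : n ∈ Jr (flag2 h) := Φ.sg_mem (flag2_perp Φ h) (i := 1) (by norm_num) hw hu
  set t : End K E := (Φ.fn w).smulRight w with ht
  have htx : ∀ x, t x = Φ.B x w • w := fun x => rfl
  have htJ : t ∈ Jr (flag2 h) := by
    intro k x hx
    rw [htx]
    rcases k with _ | _ | k
    · have h1 : Φ.B x w = 0 := h (show x ∈ W from hx) w hw
      rw [h1, zero_smul]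
      exact Submodule.zero_mem _
    · have h1 : Φ.B x w = 0 := (show x ∈ Φ.perp W from hx) w hw
      rw [h1, zero_smul]
      exact Submodule.zero_mem _
    · apply Submodule.smul_mem
      exact (flag2 h).mono (show 1 ≤ k + 1 + 1 by omega) hw
  have hm : n - Q u • t ∈ Jr (flag2 h) := (Jr _).sub_mem hnJ ((Jr _).smul_mem _ htJ)
  have hmx : ∀ y, (oneAdd _ hm) y - y = Φ.B y u • w - Φ.B y w • u - (Q u * Φ.B y w) • w := by
    intro y
    change (1 + (n - Q u • t)) y - y = _
    rw [LinearMap.add_apply, End.one_apply, add_sub_cancel_left, LinearMap.sub_apply,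
      LinearMap.smul_apply, hn, Φ.sg_apply, htx, hθε, one_mul, smul_smul]
  refine ⟨oneAdd _ hm, ⟨oneAdd_mem _ hm, ?_⟩, hmx⟩
  change ∀ x, Q _ = Q x
  intro y
  have e : (oneAdd _ hm) y = y + (Φ.B y u • w + (Φ.B y w • (-u) + (-(Q u * Φ.B y w)) • w)) := by
    rw [← sub_eq_iff_eq_add', hmx, smul_neg, neg_smul]
    abel
  refine (congrArg Q e).trans ?_
  rw [hQ.add, hQ.add, hQ.add, hQ.smul, hQ.smul, hQ.smul, hW w hw, hQ.neg]
  simp only [Φ.add_right, Φ.smul_left, hQ.smul_r, Φ.neg_right, Φ.neg_left, hww, hwu, huw]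
  ring

variable (hW0 : W ≠ ⊥) (hiso : W ≤ Φ.perp W) (hW : ∀ w ∈ W, Q w = 0)
  {h : SpecialLinearGroup K E}
  (hI : h ∈ IsoQ Q) (hhW : ∀ w ∈ W, h w ∈ W)
  (hh : ∀ v ∈ VF (flag2 hiso) ⊓ IsoQ Q, v * h = h * v)

include hh hW in
/-- the relation of the Siegel transformations -/
theorem siegelQ_rel {u w : E} (hw : w ∈ W) (hu : u ∈ Φ.perp W) (y : E) :
    Φ.B y u • h w - Φ.B y w • h u - (Q u * Φ.B y w) • h w =
    Φ.B (h y) u • w - Φ.B (h y) w • u - (Q u * Φ.B (h y) w) • w := by
  obtain ⟨v, hv, hve⟩ := siegelQ hQ hiso hW hw hu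
  have h0 : v (h y) = h (v y) := by rw [← mul_apply', hh v hv, mul_apply']
  have h1 : h (v y - y) = v (h y) - h y := by
    have h2 : h (v y - y) = h (v y) - h y := map_sub h.1 _ _
    rw [h2, h0]
  rw [hve, hve] at h1
  rw [← h1]
  have e1 : ∀ a b : E, h (a - b) = h a - h b := fun a b => map_sub h.1 _ _
  have e2 : ∀ (a : K) (b : E), h (a • b) = a • h b := fun a b => map_smul h.1 _ _
  rw [e1, e1, e2, e2, e2]

include hW0 hI hhW hh hW in
theorem cnclQ_ne (hne : Φ.perp W ≠ W) : ∃ μ, Cncl Φ h W μ := by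
  have hI' : h ∈ Φ.Iso := hQ.le hI
  obtain ⟨w0, hw0, hw00⟩ := Submodule.exists_mem_ne_zero_of_ne_bot hW0
  obtain ⟨y0, hy0, hy0W⟩ : ∃ y0 ∈ Φ.perp W, y0 ∉ W := by
    by_contra hcon
    push Not at hcon
    exact hne (le_antisymm hcon hiso)
  obtain ⟨u0, hu0, hyu⟩ : ∃ u0 ∈ Φ.perp W, Φ.B y0 u0 ≠ 0 := by
    by_contra hcon
    push Not at hcon
    apply hy0W
    rw [← Φ.perp_perp W]
    exact hcon
  have key : ∀ y ∈ Φ.perp W, ∀ u ∈ Φ.perp W, ∀ w ∈ W, Φ.B y u • h w = Φ.B (h y) u • w := by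
    intro y hy u hu w hw
    have h1 := siegelQ_rel hQ hiso hW hh hw hu y
    have h2 : Φ.B y w = 0 := hy w hw
    have h3 : Φ.B (h y) w = 0 := perp_stable Φ hI' hhW hy w hw
    rw [h2, h3] at h1
    simpa using h1
  set μ := (Φ.B y0 u0)⁻¹ * Φ.B (h y0) u0 with hμ
  have c1 : ∀ w ∈ W, h w = μ • w := by
    intro w hw
    have h1 := key y0 hy0 u0 hu0 w hw
    rw [hμ, mul_smul, ← h1, smul_smul, inv_mul_cancel₀ hyu, one_smul]
  have c3 : ∀ y ∈ Φ.perp W, h y - μ • y ∈ W := by
    intro y hy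
    rw [← Φ.perp_perp W]
    intro u hu
    have h1 := key y hy u hu w0 hw0
    rw [c1 w0 hw0, smul_smul, ← sub_eq_zero, ← sub_smul] at h1
    have h2 := (smul_eq_zero.mp h1).resolve_right hw00
    rw [Φ.sub_left, Φ.smul_left]
    linear_combination -h2
  have hμμ : Φ.θ μ * μ = 1 := by
    have h1 := hI' y0 u0
    have h2 := c3 y0 hy0
    have h3 := c3 u0 hu0
    set a := h y0 - μ • y0 with ha
    set b := h u0 - μ • u0 with hb
    have e1 : h y0 = μ • y0 + a := by rw [ha]; abel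
    have e2 : h u0 = μ • u0 + b := by rw [hb]; abel
    rw [e1, e2, Φ.add_left, Φ.add_right, Φ.add_right, Φ.smul_left, Φ.smul_right, Φ.smul_left,
      Φ.smul_right, hy0 b h3, (Φ.mem_perp'.mp hu0) a h2, hiso h2 b h3] at h1
    have h4 : (Φ.θ μ * μ - 1) * Φ.B y0 u0 = 0 := by linear_combination h1
    exact sub_eq_zero.mp ((mul_eq_zero.mp h4).resolve_right hyu)
  have hθ0 : Φ.θ μ ≠ 0 := left_ne_zero_of_mul_eq_one hμμ
  refine ⟨μ, c1, ?_, c3⟩
  intro y w hw
  have h1 := hI' y w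
  rw [c1 w hw, Φ.smul_right] at h1
  rw [Φ.sub_left, Φ.smul_left]
  apply mul_left_cancel₀ hθ0
  rw [mul_sub, h1, mul_zero]
  linear_combination (-Φ.B y w) * hμμ

include hW0 hI hhW hh hW in
theorem exists_cnclQ (hd : 6 ≤ finrank K E) : ∃ μ, Cncl Φ h W μ := by
  by_cases hne : Φ.perp W = W
  swap
  · exact cnclQ_ne hQ hW0 hiso hW hI hhW hh hne
  have fin : (∃ μ : K, (∀ w ∈ W, h w = μ • w) ∧ ∀ y, h y - μ • y ∈ Φ.perp W) →
      ∃ μ, Cncl Φ h W μ := by
    rintro ⟨μ, h1, h2⟩
    refine ⟨μ, h1, h2, ?_⟩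
    intro y hy
    rw [hne] at hy
    rw [h1 y hy, sub_self]
    exact W.zero_mem
  apply fin
  have hdim : 3 ≤ finrank K W := by
    have h1 := Φ.finrank_add_finrank_perp W
    rw [hne] at h1
    omega
  -- a vector outside the span of two vectors
  have hout : ∀ s : Finset E, s.card ≤ 2 → ∃ u ∈ W, u ∉ Submodule.span K (s : Set E) := by
    intro s hs
    by_contra hcon
    push Not at hcon
    have h1 : W ≤ Submodule.span K (s : Set E) := hcon
    have h2 := Submodule.finrank_mono h1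
    have h3 := finrank_span_finset_le_card (R := K) s
    have h4 : finrank K W ≤ s.card := h2.trans h3
    omega
  have rel : ∀ u ∈ W, ∀ w ∈ W, ∀ y, Φ.B y u • h w - Φ.B y w • h u =
      Φ.B (h y) u • w - Φ.B (h y) w • u := by
    intro u hu w hw y
    have h1 := siegelQ_rel hQ hiso hW hh hw (hiso hu) y
    rw [hW u hu] at h1
    simpa using h1
  classical
  have h1 : ∀ w ∈ W, ∃ c : K, toEnd h w = c • w := by
    intro w hw
    by_cases hw0 : w = 0
    · refine ⟨0, ?_⟩
      rw [hw0, map_zero, smul_zero]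
    obtain ⟨u, hu, huw⟩ := hout {w} (by simp)
    obtain ⟨u', hu', huw'⟩ := hout {w, u} Finset.card_le_two
    have huw1 : u ∉ Submodule.span K ({w} : Set E) := by simpa using huw
    have huw2 : u' ∉ Submodule.span K ({w, u} : Set E) := by simpa using huw'
    have huw3 : u' ∉ Submodule.span K ({w} : Set E) := fun hc =>
      huw2 (Submodule.span_mono (by simp) hc)
    -- `h w` is in the span of `w` and `u`
    have hsp : ∀ u ∈ W, u ∉ Submodule.span K ({w} : Set E) → ∃ a b : K,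
        h w = a • w + b • u := by
      intro u hu huw
      obtain ⟨y, hy, hyu⟩ := exists_dualvec Φ huw
      have hyw : Φ.B y w = 0 := hy w (Submodule.mem_span_singleton_self w)
      have h2 := rel u hu w hw y
      rw [hyu, hyw, zero_smul, sub_zero, one_smul] at h2
      refine ⟨Φ.B (h y) u, -Φ.B (h y) w, ?_⟩
      rw [h2, neg_smul, sub_eq_add_neg]
    obtain ⟨a, b, e1⟩ := hsp u hu huw1
    obtain ⟨a', b', e2⟩ := hsp u' hu' huw3
    have hb' : b' = 0 := by
      by_contra hb'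
      apply huw2
      rw [Submodule.mem_span_pair]
      refine ⟨b'⁻¹ * (a - a'), b'⁻¹ * b, ?_⟩
      have e3 : b' • u' = (a - a') • w + b • u := by
        have e4 : a • w + b • u = a' • w + b' • u' := e1.symm.trans e2
        rw [sub_smul]
        have e5 : b' • u' = a • w + b • u - a' • w := by rw [e4]; abel
        rw [e5]; abel
      calc (b'⁻¹ * (a - a')) • w + (b'⁻¹ * b) • u = b'⁻¹ • ((a - a') • w + b • u) := by
            rw [smul_add, smul_smul, smul_smul]
        _ = b'⁻¹ • (b' • u') := by rw [e3]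
        _ = u' := by rw [smul_smul, inv_mul_cancel₀ hb', one_smul]
    refine ⟨a', ?_⟩
    rw [hb', zero_smul, add_zero] at e2
    exact e2
  obtain ⟨μ, hμ⟩ := scalar_on h1
  refine ⟨μ, hμ, ?_⟩
  intro y u hu
  by_cases hu0 : u = 0
  · rw [hu0, Φ.zero_right]
  obtain ⟨w, hw, hwu⟩ := hout {u} (by simp)
  have hwu1 : w ∉ Submodule.span K ({u} : Set E) := by simpa using hwu
  have h2 := rel u hu w hw y
  have h3 : h w = μ • w := hμ w hw
  have h4 : h u = μ • u := hμ u hu
  rw [h3, h4, smul_smul, smul_smul] at h2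
  -- the coefficient of `w`
  have h5 : (Φ.B y u * μ - Φ.B (h y) u) • w =
      (Φ.B y w * μ - Φ.B (h y) w) • u := by
    rw [sub_smul, sub_smul, sub_eq_sub_iff_sub_eq_sub]
    exact h2
  have h6 : Φ.B y u * μ - Φ.B (h y) u = 0 := by
    by_contra h7
    apply hwu1
    rw [Submodule.mem_span_singleton]
    refine ⟨(Φ.B y u * μ - Φ.B (h y) u)⁻¹ *
      (Φ.B y w * μ - Φ.B (h y) w), ?_⟩
    rw [mul_smul, ← h5, smul_smul, inv_mul_cancel₀ h7, one_smul]
  rw [Φ.sub_left, Φ.smul_left]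
  linear_combination -h6

include hW0 hI hhW hh hW in
/-- **the centraliser of the isometries in the unipotent radical** -/
theorem centQ (hd : 6 ≤ finrank K E) : h ∈ VF (flag2 hiso) := by
  obtain ⟨μ, c1, c2, c3⟩ := exists_cnclQ hQ hW0 hiso hW hI hhW hh hd
  obtain ⟨w, hw, hw0⟩ := Submodule.exists_mem_ne_zero_of_ne_bot hW0
  obtain ⟨y, -, hy⟩ := exists_dualvec Φ (W := ⊥) (u := w) (by rwa [Submodule.mem_bot])
  have hμμ : μ * μ = 1 := by
    have h1 := hQ.le hI y w
    have h2 := c2 y w hw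
    rw [Φ.sub_left, Φ.smul_left, hy, mul_one, sub_eq_zero] at h2
    rw [c1 w hw, Φ.smul_right, h2, hy, hQ.th] at h1
    exact h1
  have hμ1 : μ = 1 := by
    have h1 : (μ - 1) * (μ - 1) = 0 := by
      have h2 : (μ - 1) * (μ - 1) = μ * μ + 1 - 2 * μ := by ring
      have h3 : (1 : K) + 1 = 2 := by norm_num
      rw [h2, hμμ, hQ.two, zero_mul, sub_zero, h3, hQ.two]
    exact sub_eq_zero.mp (mul_self_eq_zero.mp h1)
  rw [hμ1] at c1 c2 c3
  rw [mem_VF_iff]
  intro i x hx
  rcases i with _ | _ | _ | i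
  · have h1 := c1 x hx
    rw [one_smul] at h1
    rw [LinearMap.sub_apply]
    change h x - x ∈ _
    rw [h1, sub_self]
    exact Submodule.zero_mem _
  · have h1 := c3 x hx
    rw [one_smul] at h1
    exact h1
  · have h1 := c2 x
    rw [one_smul] at h1
    exact h1
  · exact Submodule.mem_top

end Vale.Agent.P180.R2.H259.Loc
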