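import Vale.Agent.P180.R2.H854.Flag
import Vale.Agent.P180.R2.H799.BNQ

set_option linter.all false

/-!
P180: the radical `p`-subgroups of `SL(E)` in characteristic `p` are the unipotent radicals of the
stabilisers of flags.
-/

namespace Vale.Agent.P180.R2.H259.Loc

open Module Vale.Agent.P180.R2.H854

variable {K E : Type*} [Field K] [AddCommGroup E] [Module K E]

/-- the next member of the flag of a group -/
def nxt (R : Subgroup (SpecialLinearGroup K E)) (W : Submodule K E) : Submodule K E where
  carrier := {x | ∀ g ∈ R, g x - x ∈ W}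
  zero_mem' := by
    intro g _
    have : g (0 : E) = 0 := map_zero g.1
    rw [this, sub_zero]
    exact W.zero_mem
  add_mem' := by
    intro a b ha hb g hg
    have h := W.add_mem (ha g hg) (hb g hg)
    have e : g (a + b) - (a + b) = (g a - a) + (g b - b) := by
      have : g (a + b) = g a + g b := map_add g.1 a b
      rw [this]; abel
    rw [e]
    exact h
  smul_mem' := by
    intro c a ha g hg
    have h := W.smul_mem c (ha g hg)
    have e : g (c • a) - c • a = c • (g a - a) := by
      have : g (c • a) = c • g a := map_smul g.1 c a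
      rw [this, smul_sub]
    rw [e]
    exact h

theorem mem_nxt {R : Subgroup (SpecialLinearGroup K E)} {W : Submodule K E} {x : E} :
    x ∈ nxt R W ↔ ∀ g ∈ R, g x - x ∈ W := Iff.rfl

theorem nxt_mono (R : Subgroup (SpecialLinearGroup K E)) {W W' : Submodule K E} (h : W ≤ W') :
    nxt R W ≤ nxt R W' := fun x hx g hg => h (hx g hg)

/-- the ascending series of a group -/
def asc (R : Subgroup (SpecialLinearGroup K E)) : ℕ → Submodule K E
  | 0 => ⊥
  | i + 1 => nxt R (asc R i)

theorem asc_le_succ (R : Subgroup (SpecialLinearGroup K E)) : ∀ i, asc R i ≤ asc R (i + 1)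
  | 0 => bot_le
  | i + 1 => nxt_mono R (asc_le_succ R i)

theorem asc_mono (R : Subgroup (SpecialLinearGroup K E)) : Monotone (asc R) :=
  monotone_nat_of_le_succ (asc_le_succ R)

/-- `asc R i` is `R`-stable -/
theorem asc_stable (R : Subgroup (SpecialLinearGroup K E)) (i : ℕ) {x : E} (hx : x ∈ asc R i)
    {g : SpecialLinearGroup K E} (hg : g ∈ R) : g x ∈ asc R i := by
  have h1 : g x - x ∈ asc R i := asc_le_succ R i hx g hg
  have h2 := (asc R i).add_mem h1 hx
  rwa [sub_add_cancel] at h2

section fin

variable [Finite K] [FiniteDimensional K E] {p : ℕ} [Fact p.Prime]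

/-- a `p`-group fixes a point of a nonzero quotient -/
theorem exists_nxt (hp : (p : K) = 0) {R : Subgroup (SpecialLinearGroup K E)} (hR : IsPGroup p R)
    (i : ℕ) (hi : asc R i ≠ ⊤) : asc R i < asc R (i + 1) := by
  refine lt_of_le_of_ne (asc_le_succ R i) ?_
  intro heq
  set W := asc R i with hW
  haveI : Finite E := Module.finite_of_finite K
  haveI : Finite (E ⧸ W) := Finite.of_surjective _ W.mkQ_surjective
  haveI : Nontrivial (E ⧸ W) := Submodule.Quotient.nontrivial_iff.mpr hi
  -- the action of `R` on the quotient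
  have hst : ∀ (g : R), W ≤ W.comap (g.1.1 : E →ₗ[K] E) := fun g x hx =>
    asc_stable R i hx g.2
  letI : MulAction R (E ⧸ W) :=
    { smul := fun g x => W.mapQ W (g.1.1 : E →ₗ[K] E) (hst g) x
      one_smul := by
        intro x
        obtain ⟨y, rfl⟩ := W.mkQ_surjective x
        rfl
      mul_smul := by
        intro g h x
        obtain ⟨y, rfl⟩ := W.mkQ_surjective x
        rfl }
  have hsm : ∀ (g : R) (y : E), g • (W.mkQ y) = W.mkQ (g.1 y) := fun g y => rfl
  have hdvd : p ∣ Nat.card (E ⧸ W) := by
    rw [Module.natCard_eq_pow_finrank (K := K) (V := E ⧸ W)]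
    have h1 : p ∣ Nat.card K := by
      haveI : CharP K p := by
        have h1 : ringChar K ∣ p := ringChar.dvd hp
        have h2 : ringChar K = p := by
          rcases (Nat.dvd_prime (Fact.out : p.Prime)).mp h1 with h | h
          · exact absurd h (CharP.ringChar_ne_one)
          · exact h
        rw [← h2]
        exact ringChar.charP K
      haveI := Fintype.ofFinite K
      obtain ⟨n, _, hc⟩ := FiniteField.card K p
      rw [Nat.card_eq_fintype_card, hc]
      exact dvd_pow_self p n.2.ne'
    exact Dvd.dvd.pow h1 (Module.finrank_pos (R := K) (M := E ⧸ W)).ne'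
  obtain ⟨v, hv, hv0⟩ := hR.exists_fixed_point_of_prime_dvd_card_of_fixed_point (E ⧸ W) hdvd
    (a := 0) (by
      intro g
      have := hsm g 0
      rw [map_zero] at this
      rw [this]
      have h0 : g.1 (0 : E) = 0 := map_zero g.1.1
      rw [h0, map_zero])
  obtain ⟨y, rfl⟩ := W.mkQ_surjective v
  have hy : y ∈ nxt R W := by
    intro g hg
    have h1 : (⟨g, hg⟩ : R) • (W.mkQ y) = W.mkQ y := hv ⟨g, hg⟩
    rw [hsm] at h1
    have h2 : W.mkQ (g y - y) = 0 := by rw [map_sub, h1, sub_self]
    rwa [Submodule.mkQ_apply, Submodule.Quotient.mk_eq_zero] at h2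
  have h1 : y ∈ W := by
    have h2 : y ∈ asc R (i + 1) := hy
    rwa [← heq] at h2
  apply hv0
  rw [Submodule.mkQ_apply, eq_comm, Submodule.Quotient.mk_eq_zero]
  exact h1

theorem exists_top (hp : (p : K) = 0) {R : Subgroup (SpecialLinearGroup K E)}
    (hR : IsPGroup p R) : ∃ N, asc R N = ⊤ := by
  have key : ∀ N, asc R N = ⊤ ∨ N ≤ finrank K (asc R N) := by
    intro N
    induction N with
    | zero => exact Or.inr (Nat.zero_le _)
    | succ N ih =>
      rcases ih with h | h
      · left
        exact top_le_iff.mp (h ▸ asc_le_succ R N)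
      · by_cases ht : asc R N = ⊤
        · left
          exact top_le_iff.mp (ht ▸ asc_le_succ R N)
        · right
          have := Submodule.finrank_lt_finrank_of_lt (exists_nxt hp hR N ht)
          omega
  refine ⟨finrank K E, ?_⟩
  rcases key (finrank K E) with h | h
  · exact h
  · exact Submodule.eq_top_of_finrank_eq (le_antisymm (Submodule.finrank_le _) h)

/-- the flag of a `p`-group -/
def flagOf (hp : (p : K) = 0) {R : Subgroup (SpecialLinearGroup K E)} (hR : IsPGroup p R) :
    Flag K E where
  car := asc R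
  mono := asc_mono R
  zero := rfl
  top := exists_top hp hR

theorem le_VF (hp : (p : K) = 0) {R : Subgroup (SpecialLinearGroup K E)} (hR : IsPGroup p R) :
    R ≤ VF (flagOf hp hR) := fun g hg _ _ hx => hx g hg

theorem normalizer_le_PF (hp : (p : K) = 0) {R : Subgroup (SpecialLinearGroup K E)}
    (hR : IsPGroup p R) :
    Subgroup.normalizer (R : Set (SpecialLinearGroup K E)) ≤ PF (flagOf hp hR) := by
  intro h hh i
  induction i with
  | zero =>
    intro x hx
    have hx : x ∈ (⊥ : Submodule K E) := hx
    rw [Submodule.mem_bot] at hx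
    rw [hx]
    have : h (0 : E) = 0 := map_zero h.1
    rw [this]
    exact Submodule.zero_mem _
  | succ i ih =>
    intro x hx g hg
    have h1 : h⁻¹ * g * h ∈ R := by
      have := (Subgroup.mem_normalizer_iff.mp (Subgroup.inv_mem _ hh) g).mp hg
      rwa [inv_inv] at this
    have h2 := ih _ (hx _ h1)
    have e : h ((h⁻¹ * g * h) x - x) = g (h x) - h x := by
      have h3 : h ((h⁻¹ * g * h) x - x) = h ((h⁻¹ * g * h) x) - h x := map_sub h.1 _ _
      rw [h3, ← mul_apply', mul_assoc, mul_inv_cancel_left, mul_apply']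
    rwa [e] at h2

theorem isPGroup_VF (hp : (p : K) = 0) (F : Flag K E) : IsPGroup p (VF F) := by
  haveI : CharP K p := by
    have h1 : ringChar K ∣ p := ringChar.dvd hp
    have h2 : ringChar K = p := by
      rcases (Nat.dvd_prime (Fact.out : p.Prime)).mp h1 with h | h
      · exact absurd h (CharP.ringChar_ne_one)
      · exact h
    rw [← h2]
    exact ringChar.charP K
  haveI := Fintype.ofFinite K
  obtain ⟨n, _, hc⟩ := FiniteField.card K p
  apply IsPGroup.of_card (n := n * finrank K (Jr F))
  rw [card_VF, Nat.card_eq_fintype_card, hc, ← pow_mul]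

/-- **radical subgroups** -/
theorem eq_VF_of_radical [Finite (SpecialLinearGroup K E)] (hp : (p : K) = 0)
    {R : Subgroup (SpecialLinearGroup K E)} (hR : IsPGroup p R)
    (hrad : ∀ P : Subgroup (SpecialLinearGroup K E), IsPGroup p P →
      P ≤ Subgroup.normalizer (R : Set (SpecialLinearGroup K E)) →
      (∀ g ∈ Subgroup.normalizer (R : Set (SpecialLinearGroup K E)), ∀ x ∈ P, g * x * g⁻¹ ∈ P) →
      P ≤ R) : R = VF (flagOf hp hR) := by
  set F := flagOf hp hR with hF
  have hRV := le_VF hp hR
  have hNP := normalizer_le_PF hp hR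
  have hVp := isPGroup_VF hp F
  -- `N_{V}(R) ≤ R`
  have h1 : VF F ⊓ Subgroup.normalizer (R : Set (SpecialLinearGroup K E)) ≤ R := by
    apply hrad
    · exact hVp.to_le inf_le_left
    · exact inf_le_right
    · rintro g hg x ⟨hxV, hxN⟩
      refine ⟨?_, ?_⟩
      · have h2 : g ∈ Subgroup.normalizer (VF F : Set (SpecialLinearGroup K E)) := by
          rw [normalizer_VF]
          exact hNP hg
        exact (Subgroup.mem_normalizer_iff.mp h2 x).mp hxV
      · exact Subgroup.mul_mem _ (Subgroup.mul_mem _ hg hxN) (Subgroup.inv_mem _ hg)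
  by_contra hne
  have hlt : R < VF F := lt_of_le_of_ne hRV hne
  have hnil : Group.IsNilpotent (VF F) := hVp.isNilpotent
  have h2 : R.subgroupOf (VF F) < ⊤ := by
    rw [lt_top_iff_ne_top, Ne, Subgroup.subgroupOf_eq_top]
    exact fun h => hne (le_antisymm hRV h)
  have h3 := (Group.normalizerCondition_of_isNilpotent (G := VF F)) _ h2
  obtain ⟨x, hx, hxR⟩ := SetLike.exists_of_lt h3
  apply hxR
  rw [Subgroup.mem_subgroupOf]
  apply h1
  refine ⟨x.2, ?_⟩
  change (x : SpecialLinearGroup K E) ∈ Subgroup.normalizer (R : Set (SpecialLinearGroup K E))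
  rw [Subgroup.mem_normalizer_iff]
  intro g
  have hx' := Subgroup.mem_normalizer_iff.mp hx
  constructor
  · intro hg
    have := (hx' ⟨g, hRV hg⟩).mp hg
    exact this
  · intro hg
    have hgV : g ∈ VF F := by
      have h4 := (VF F).mul_mem ((VF F).mul_mem ((VF F).inv_mem x.2) (hRV hg)) x.2
      have e : (x : SpecialLinearGroup K E)⁻¹ * (x * g * (x : SpecialLinearGroup K E)⁻¹) * x = g := by
        group
      rwa [e] at h4
    exact (hx' ⟨g, hgV⟩).mpr hg

end fin

end Vale.Agent.P180.R2.H259.Loc
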